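import Vale.Agent.Lib.P200.Koszul

/-!
# P200: definitions used in the statement of the three cubics theorem
-/

open MvPolynomial Module

namespace Vale.Agent.P200

variable {K : Type*} [Field K]

/-- All exponent triples `(a, b, c)` with `a, b, c ≤ 2`, listed in descending lexicographic order.
These are the exponents of the monomials outside `(x³, y³, z³)`. -/
def allTriples : List (ℕ × ℕ × ℕ) :=
  [2, 1, 0].flatMap fun a => [2, 1, 0].flatMap fun b => [2, 1, 0].map fun c => (a, b, c)

/-- The exponents of the degree `d` monomials outside `(x³, y³, z³)`, lex-greatest first. -/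
def outMonos (d : ℕ) : List (ℕ × ℕ × ℕ) :=
  allTriples.filter fun t => t.1 + t.2.1 + t.2.2 = d

/-- The monomial `x^a y^b z^c`. -/
noncomputable def mono (t : ℕ × ℕ × ℕ) : S K := X 0 ^ t.1 * X 1 ^ t.2.1 * X 2 ^ t.2.2

/-- The ideal `(x³, y³, z³)`. -/
noncomputable def cubesIdeal (K : Type*) [Field K] : Ideal (S K) :=
  Ideal.span {X 0 ^ 3, X 1 ^ 3, X 2 ^ 3}

/-- The dimension of the degree `d` part of the ideal `I`. -/
noncomputable def gdim (I : Ideal (S K)) (d : ℕ) : ℕ :=
  finrank K ↥(I.restrictScalars K ⊓ H K d)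

/-- `q_d = dim I_d - dim P_d`. -/
noncomputable def qd (I : Ideal (S K)) (d : ℕ) : ℕ := gdim I d - gdim (cubesIdeal K) d

/-- `J_d`: the span of `P_d` and the `q_d` lex-greatest degree `d` monomials outside `P`. -/
noncomputable def Jd (I : Ideal (S K)) (d : ℕ) : Submodule K (S K) :=
  ((cubesIdeal K).restrictScalars K ⊓ H K d) ⊔
    Submodule.span K {m | ∃ t ∈ (outMonos d).take (qd I d), m = mono t}

/-- `J = ⨁ J_d`. -/
noncomputable def lexPlusPowers (I : Ideal (S K)) : Submodule K (S K) := ⨆ d, Jd I d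

end Vale.Agent.P200
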