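import Vale.Agent.Lib.P200.GrowthHigh
import Vale.Agent.Lib.P200.StatementDefs

/-!
# P200: from growth to the ideal property of `J`
-/

open MvPolynomial Module

namespace Vale.Agent.P200

variable {K : Type*} [Field K]

/-! ### the cubes are a regular sequence -/

theorem X_pow_eq (j : Fin 3) : (X j ^ 3 : S K) = monomial (Finsupp.single j 3) 1 :=
  X_pow_eq_monomial

theorem regSeq_cubes : RegSeq (X 0 ^ 3 : S K) (X 1 ^ 3) (X 2 ^ 3) := by
  refine ⟨pow_ne_zero _ (X_ne_zero _), ?_, ?_⟩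
  · intro g hg
    have hg' : (X 0 : S K) ^ 3 ∣ X 1 ^ 3 * g := Ideal.mem_span_singleton.1 hg
    refine Ideal.mem_span_singleton.2 ?_
    refine (X_prime (i := (0 : Fin 3)) (R := K)).pow_dvd_of_dvd_mul_left 3 ?_ hg'
    intro hd
    have := (X_prime (i := (0 : Fin 3)) (R := K)).dvd_of_dvd_pow hd
    exact absurd (X_dvd_X.1 this) (by decide)
  · intro g hg
    have hset : ({X 0 ^ 3, X 1 ^ 3} : Set (S K)) =
        (fun s => monomial s (1 : K)) '' ({Finsupp.single 0 3, Finsupp.single 1 3} :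
          Set (Fin 3 →₀ ℕ)) := by
      simp [Set.image_insert_eq, X_pow_eq]
    rw [hset] at hg ⊢
    rw [mem_ideal_span_monomial_image] at hg ⊢
    intro m hm
    have hm2 : (m + Finsupp.single (2 : Fin 3) 3) ∈ (X 2 ^ 3 * g).support := by
      rw [X_pow_eq, MvPolynomial.mem_support_iff, coeff_monomial_mul', if_pos]
      · rw [one_mul, add_tsub_cancel_right]
        exact MvPolynomial.mem_support_iff.1 hm
      · exact le_add_self
    obtain ⟨i, hi, hi2⟩ := hg _ hm2
    refine ⟨i, hi, ?_⟩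
    intro k
    have hk := hi2 k
    rcases (by simpa using hi : i = Finsupp.single 0 3 ∨ i = Finsupp.single 1 3) with rfl | rfl
    · by_cases h2 : k = 2
      · subst h2; simp
      · simpa [Finsupp.single_apply, Ne.symm h2] using hk
    · by_cases h2 : k = 2
      · subst h2; simp
      · simpa [Finsupp.single_apply, Ne.symm h2] using hk

theorem X_pow_mem_H (j : Fin 3) : (X j ^ 3 : S K) ∈ H K 3 := isHomogeneous_X_pow j 3

theorem cubics_cubes : Cubics (X 0 ^ 3 : S K) (X 1 ^ 3) (X 2 ^ 3) :=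
  ⟨regSeq_cubes, X_pow_mem_H 0, X_pow_mem_H 1, X_pow_mem_H 2⟩

theorem gdim_cubes {d : ℕ} (hd : d ≤ 7) : gdim (cubesIdeal K) d = fdim d :=
  cubics_cubes.finrank_F hd

/-! ### the monomial combinatorics -/

/-- multiply a monomial by a variable -/
def bump : Fin 3 → ℕ × ℕ × ℕ → ℕ × ℕ × ℕ
  | 0, (a, b, c) => (a + 1, b, c)
  | 1, (a, b, c) => (a, b + 1, c)
  | 2, (a, b, c) => (a, b, c + 1)

/-- the monomial lies in `P` -/
def bad (t : ℕ × ℕ × ℕ) : Bool := 3 ≤ t.1 || 3 ≤ t.2.1 || 3 ≤ t.2.2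

theorem key_bump : ∀ d, d < 6 → ∀ q, q < 8 → ∀ t ∈ (outMonos d).take q, ∀ j : Fin 3,
    bad (bump j t) = true ∨ bump j t ∈ (outMonos (d + 1)).take (gT d q) := by
  decide

theorem key_high : ∀ t ∈ allTriples, 6 ≤ t.1 + t.2.1 + t.2.2 → ∀ j : Fin 3, bad (bump j t) = true := by
  decide

theorem mono_bump (j : Fin 3) (t : ℕ × ℕ × ℕ) : (mono (bump j t) : S K) = X j * mono t := by
  obtain ⟨a, b, c⟩ := t
  fin_cases j <;> simp [bump, mono] <;> ring

theorem mono_mem_H (t : ℕ × ℕ × ℕ) : (mono t : S K) ∈ H K (t.1 + t.2.1 + t.2.2) :=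
  ((isHomogeneous_X_pow _ _).mul (isHomogeneous_X_pow _ _)).mul (isHomogeneous_X_pow _ _)

theorem mono_bad {t : ℕ × ℕ × ℕ} (h : bad t = true) : (mono t : S K) ∈ cubesIdeal K := by
  obtain ⟨a, b, c⟩ := t
  have h0 : (X 0 ^ 3 : S K) ∈ cubesIdeal K := Ideal.subset_span (by simp)
  have h1 : (X 1 ^ 3 : S K) ∈ cubesIdeal K := Ideal.subset_span (by simp)
  have h2 : (X 2 ^ 3 : S K) ∈ cubesIdeal K := Ideal.subset_span (by simp)
  simp only [bad, Bool.or_eq_true, decide_eq_true_eq] at h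
  rcases h with (h | h) | h
  · have e : (mono (a, b, c) : S K) = X 0 ^ 3 * (X 0 ^ (a - 3) * X 1 ^ b * X 2 ^ c) := by
      simp only [mono]
      nth_rewrite 1 [show a = 3 + (a - 3) by have h' : 3 ≤ a := h; omega]
      rw [pow_add]; ring
    rw [e]
    exact Ideal.mul_mem_right _ _ h0
  · have e : (mono (a, b, c) : S K) = X 1 ^ 3 * (X 0 ^ a * X 1 ^ (b - 3) * X 2 ^ c) := by
      simp only [mono]
      nth_rewrite 1 [show b = 3 + (b - 3) by have h' : 3 ≤ b := h; omega]
      rw [pow_add]; ring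
    rw [e]
    exact Ideal.mul_mem_right _ _ h1
  · have e : (mono (a, b, c) : S K) = X 2 ^ 3 * (X 0 ^ a * X 1 ^ b * X 2 ^ (c - 3)) := by
      simp only [mono]
      nth_rewrite 1 [show c = 3 + (c - 3) by have h' : 3 ≤ c := h; omega]
      rw [pow_add]; ring
    rw [e]
    exact Ideal.mul_mem_right _ _ h2

theorem bump_sum (j : Fin 3) (t : ℕ × ℕ × ℕ) :
    (bump j t).1 + (bump j t).2.1 + (bump j t).2.2 = t.1 + t.2.1 + t.2.2 + 1 := by
  obtain ⟨a, b, c⟩ := t
  fin_cases j <;> simp [bump] <;> omega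

theorem mem_outMonos {d : ℕ} {t : ℕ × ℕ × ℕ} (h : t ∈ outMonos d) :
    t ∈ allTriples ∧ t.1 + t.2.1 + t.2.2 = d := by
  simpa [outMonos] using h

/-! ### assembling -/

variable {f1 f2 f3 : S K}

theorem P_mul (j : Fin 3) {d : ℕ} {p : S K} (hp : p ∈ (cubesIdeal K).restrictScalars K ⊓ H K d) :
    X j * p ∈ (cubesIdeal K).restrictScalars K ⊓ H K (d + 1) :=
  ⟨Ideal.mul_mem_left _ _ hp.1, mul_mem_H (X_mem_H1 j) hp.2 (by omega)⟩

/-- Under `qd` bounds, `J_d` goes to `J_{d+1}`. -/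
theorem Jd_step (I : Ideal (S K))
    (hq : ∀ d, d < 6 → qd I d < 8 ∧ gT d (qd I d) ≤ qd I (d + 1)) (j : Fin 3) (d : ℕ)
    {p : S K} (hp : p ∈ Jd I d) : X j * p ∈ Jd I (d + 1) := by
  have hle : Jd I d ≤ (Jd I (d + 1)).comap (LinearMap.mulLeft K (X j : S K)) := by
    refine sup_le ?_ ?_
    · intro p hp
      exact Submodule.mem_sup_left (P_mul j hp)
    · refine Submodule.span_le.2 ?_
      rintro _ ⟨t, ht, rfl⟩
      show X j * mono t ∈ Jd I (d + 1)
      rw [← mono_bump]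
      have htd := mem_outMonos (List.mem_of_mem_take ht)
      have hbadcase : bad (bump j t) = true → (mono (bump j t) : S K) ∈ Jd I (d + 1) := by
        intro hb
        refine Submodule.mem_sup_left ⟨mono_bad hb, ?_⟩
        have := mono_mem_H (K := K) (bump j t)
        rwa [bump_sum, htd.2] at this
      by_cases hd : d < 6
      · obtain ⟨hq1, hq2⟩ := hq d hd
        rcases key_bump d hd _ hq1 t ht j with hb | hb
        · exact hbadcase hb
        · refine Submodule.mem_sup_right (Submodule.subset_span ⟨_, ?_, rfl⟩)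
          exact (List.take_subset_take_left _ hq2) hb
      · exact hbadcase (key_high t htd.1 (by omega) j)
  exact hle hp

/-- `J` is closed under multiplication. -/
theorem J_mul_of_step (I : Ideal (S K))
    (hq : ∀ d, d < 6 → qd I d < 8 ∧ gT d (qd I d) ≤ qd I (d + 1)) (g : S K) {p : S K}
    (hp : p ∈ lexPlusPowers I) : g * p ∈ lexPlusPowers I := by
  have hX : ∀ j : Fin 3, ∀ p ∈ lexPlusPowers I, X j * p ∈ lexPlusPowers I := by
    intro j p hp
    have hle : lexPlusPowers I ≤ (lexPlusPowers I).comap (LinearMap.mulLeft K (X j : S K)) := by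
      refine iSup_le fun d p hp => ?_
      exact Submodule.mem_iSup_of_mem (d + 1) (Jd_step I hq j d hp)
    exact hle hp
  induction g using MvPolynomial.induction_on generalizing p with
  | C a =>
    have : (C a : S K) * p = a • p := by rw [smul_eq_C_mul]
    rw [this]
    exact Submodule.smul_mem _ _ hp
  | add g1 g2 h1 h2 =>
    rw [add_mul]
    exact add_mem (h1 hp) (h2 hp)
  | mul_X g j h =>
    rw [mul_assoc]
    exact h (hX j p hp)

/-- The numerics: growth gives the bound for `qd`. -/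
theorem qd_bounds (I : Ideal (S K)) (h : Cubics f1 f2 f3)
    (h1 : f1 ∈ I) (h2 : f2 ∈ I) (h3 : f3 ∈ I)
    (hgrowth : ∀ {d : ℕ}, d ≤ 5 → ∀ {V : Submodule K (S K)}, F f1 f2 f3 d ≤ V → V ≤ H K d →
      gT d (finrank K V - fdim d) + fdim (d + 1) ≤ finrank K ↥(M V ⊔ F f1 f2 f3 (d + 1)))
    (d : ℕ) (hd : d < 6) : qd I d < 8 ∧ gT d (qd I d) ≤ qd I (d + 1) := by
  have hFI : Fid f1 f2 f3 ≤ I := by
    refine Ideal.span_le.2 ?_
    rintro x (rfl | rfl | rfl)
    · exact h1
    · exact h2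
    · exact h3
  have hFV : ∀ d, F f1 f2 f3 d ≤ I.restrictScalars K ⊓ H K d := fun d p hp => ⟨hFI hp.1, hp.2⟩
  have hVH : ∀ d, I.restrictScalars K ⊓ H K d ≤ H K d := fun d => inf_le_right
  have hfinite : ∀ d, FiniteDimensional K ↥(I.restrictScalars K ⊓ H K d) := fun d => fd_of_le inf_le_right
  have hup : ∀ d, finrank K ↥(I.restrictScalars K ⊓ H K d) ≤ finrank K (H K d) := fun d =>
    Submodule.finrank_mono inf_le_right
  have hqd : ∀ {d}, d ≤ 7 → qd I d = gdim I d - fdim d := by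
    intro d hd
    simp only [qd]
    rw [gdim_cubes hd]
  have hg := hgrowth (d := d) (by omega) (hFV d) (hVH d)
  have hle : M (I.restrictScalars K ⊓ H K d) ⊔ F f1 f2 f3 (d + 1) ≤ I.restrictScalars K ⊓ H K (d + 1) := by
    refine sup_le ?_ (hFV _)
    refine le_inf (M_le_ideal inf_le_left) (M_le_H inf_le_right)
  have hg2 := Submodule.finrank_mono hle
  have h5 := hup d
  rw [finrank_H] at h5
  have hF0 : fdim d ≤ finrank K ↥(I.restrictScalars K ⊓ H K d) := by
    rw [← h.finrank_F (by omega : d ≤ 7)]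
    exact Submodule.finrank_mono (hFV d)
  rw [hqd (by omega), hqd (by omega)]
  simp only [gdim]
  constructor
  · interval_cases d <;> simp [fdim, Nat.choose] at h5 hF0 ⊢ <;> omega
  · omega

end Vale.Agent.P200
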