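import Vale.Agent.Lib.P200.Obstruct

/-!
# P200: growth from degree `2`, large subspaces
-/

open MvPolynomial Module

namespace Vale.Agent.P200

variable {K : Type*} [Field K] {f1 f2 f3 : S K}

/-- `w ↦ (φ(x_j w))_j` on quadrics. -/
noncomputable def rho (φ : S K →ₗ[K] K) : H K 2 →ₗ[K] (Fin 3 → K) :=
  LinearMap.pi fun j => φ.comp (mulH (X j) 2)

@[simp] theorem rho_apply (φ : S K →ₗ[K] K) (w : H K 2) (j : Fin 3) :
    rho φ w j = φ (X j * (w : S K)) := rfl

/-- evaluation lemma: a functional on `H (n+1)` built from a functional on `H n` -/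
theorem eval_step {n : ℕ} {L L' : S K →ₗ[K] K} {D : K} {r : Fin 3 → K}
    (hL : ∀ w ∈ H K n, L w = D * eval r w)
    (hstep : ∀ j : Fin 3, ∀ w ∈ H K n, L' (X j * w) = L w * r j) :
    ∀ p ∈ H K (n + 1), L' p = D * eval r p := by
  intro p hp
  rw [← M_H n] at hp
  let G : S K →ₗ[K] K := L' - D • (aeval r : S K →ₐ[K] K).toLinearMap
  have hG : M (H K n) ≤ LinearMap.ker G := by
    refine iSup_le fun j => ?_
    rintro _ ⟨w, hw, rfl⟩
    rw [LinearMap.mem_ker]
    simp only [G, LinearMap.sub_apply, LinearMap.smul_apply, AlgHom.toLinearMap_apply,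
      LinearMap.mulLeft_apply, map_mul, aeval_X, smul_eq_mul]
    rw [hstep j w hw, hL w hw, aeval_eq_eval]
    ring
  have := hG hp
  rw [LinearMap.mem_ker] at this
  simp only [G, LinearMap.sub_apply, LinearMap.smul_apply, AlgHom.toLinearMap_apply,
    smul_eq_mul, aeval_eq_eval] at this
  exact sub_eq_zero.1 this

/-- If the functional `φ` on cubics has `ρ` of rank at most one, it is a point evaluation. -/
theorem exists_point {φ : S K →ₗ[K] K} (hφH : ∃ p ∈ H K 3, φ p ≠ 0)
    (hrank : finrank K (LinearMap.range (rho φ)) ≤ 1) :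
    ∃ (r : Fin 3 → K) (D : K) (i : Fin 3), r i ≠ 0 ∧ D ≠ 0 ∧ ∀ p ∈ H K 3, φ p = D * eval r p := by
  obtain ⟨⟨r, hr⟩, hgen⟩ := (finrank_le_one_iff (K := K) (V := LinearMap.range (rho φ))).1 hrank
  -- all values of `ρ` are multiples of `r`
  have hgen' : ∀ w : H K 2, ∃ c : K, rho φ w = c • r := by
    intro w
    obtain ⟨c, hc⟩ := hgen ⟨rho φ w, ⟨w, rfl⟩⟩
    exact ⟨c, (congrArg Subtype.val hc).symm⟩
  -- `r ≠ 0`
  obtain ⟨i, hi⟩ : ∃ i, r i ≠ 0 := by
    by_contra hh
    push Not at hh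
    obtain ⟨p, hp, hφp⟩ := hφH
    apply hφp
    have hp : p ∈ M (H K 2) := by rw [M_H]; exact hp
    have hle : M (H K 2) ≤ LinearMap.ker φ := by
      refine iSup_le fun j => ?_
      rintro _ ⟨w, hw, rfl⟩
      rw [LinearMap.mem_ker]
      obtain ⟨c, hc⟩ := hgen' ⟨w, hw⟩
      have := congrFun hc j
      simp only [rho_apply, Pi.smul_apply, hh j, smul_zero] at this
      exact this
    exact hle hp
  -- the descending functionals
  let down : (S K →ₗ[K] K) → (S K →ₗ[K] K) := fun L =>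
    (r i)⁻¹ • (L.comp (LinearMap.mulLeft K (X i : S K)))
  have hdown : ∀ L w, down L w = (r i)⁻¹ * L (X i * w) := fun L w => rfl
  -- `φ (x_j w) = (down φ) w * r j`
  have h3 : ∀ j : Fin 3, ∀ w ∈ H K 2, φ (X j * w) = down φ w * r j := by
    intro j w hw
    obtain ⟨c, hc⟩ := hgen' ⟨w, hw⟩
    have ej := congrFun hc j
    have ei := congrFun hc i
    simp only [rho_apply, Pi.smul_apply, smul_eq_mul] at ej ei
    rw [hdown, ej, ei]
    field_simp
  have h2 : ∀ j : Fin 3, ∀ w ∈ H K 1, down φ (X j * w) = down (down φ) w * r j := by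
    intro j w hw
    have e1 : (X i * (X j * w) : S K) = X j * (X i * w) := by ring
    rw [hdown, e1, h3 j _ (mul_mem_H (X_mem_H1 i) hw (by omega)), hdown (down φ)]
    ring
  have h1 : ∀ j : Fin 3, ∀ w ∈ H K 0, down (down φ) (X j * w) = down (down (down φ)) w * r j := by
    intro j w hw
    have e1 : (X i * (X j * w) : S K) = X j * (X i * w) := by ring
    rw [hdown, e1, h2 j _ (mul_mem_H (X_mem_H1 i) hw (by omega)), hdown (down (down φ))]
    ring
  set L0 := down (down (down φ)) with hL0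
  set D := L0 1 with hD
  have h0 : ∀ w ∈ H K 0, L0 w = D * eval r w := by
    intro w hw
    obtain ⟨t, rfl⟩ := H0_eq hw
    have : (C t : S K) = t • (1 : S K) := by rw [smul_eq_C_mul, mul_one]
    rw [this, map_smul, smul_eq_mul]
    simp [hD, mul_comm]
  have e1 := eval_step h0 h1
  have e2 := eval_step e1 h2
  have e3 := eval_step e2 h3
  refine ⟨r, D, i, hi, ?_, e3⟩
  rintro hD0
  obtain ⟨p, hp, hφp⟩ := hφH
  apply hφp
  rw [e3 p hp, hD0, zero_mul]

/-- All of `(f1, f2, f3)` vanishes where the `f_i` do. -/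
theorem eval_Fid {r : Fin 3 → K} (h1 : eval r f1 = 0) (h2 : eval r f2 = 0) (h3 : eval r f3 = 0)
    {p : S K} (hp : p ∈ Fid f1 f2 f3) : eval r p = 0 := by
  obtain ⟨a, b, c, rfl⟩ := mem_Fid.1 hp
  simp [h1, h2, h3]

/-- A functional vanishing on the cubics of `(f1, f2, f3)` has `ρ` of rank at least two. -/
theorem Cubics.no_cube (h : Cubics f1 f2 f3) {φ : S K →ₗ[K] K}
    (hφF : ∀ p ∈ F f1 f2 f3 3, φ p = 0) (hφH : ∃ p ∈ H K 3, φ p ≠ 0) :
    2 ≤ finrank K (LinearMap.range (rho φ)) := by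
  by_contra hh
  obtain ⟨r, D, i, hi, hD, hφ⟩ := exists_point hφH (by omega)
  have hfi : ∀ f ∈ H K 3, f ∈ Fid f1 f2 f3 → eval r f = 0 := by
    intro f hf hfF
    have e := hφ f hf
    rw [hφF f ⟨hfF, hf⟩] at e
    exact (mul_eq_zero.1 e.symm).resolve_left hD
  have hz := eval_Fid (hfi f1 h.h1 f1_mem_Fid) (hfi f2 h.h2 f2_mem_Fid) (hfi f3 h.h3 f3_mem_Fid)
    (h.H7_mem (isHomogeneous_X_pow i 7))
  simp only [map_pow, eval_X] at hz
  exact hi (pow_eq_zero_iff (by omega) |>.1 hz)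

/-- Existence of a functional vanishing on a proper subspace of the cubics -/
theorem exists_functional {T : Submodule K (S K)} {n : ℕ} (hT : T ≤ H K n)
    (hne : finrank K T < finrank K (H K n)) :
    ∃ φ : S K →ₗ[K] K, (∀ p ∈ T, φ p = 0) ∧ ∃ p ∈ H K n, φ p ≠ 0 := by
  have hlt : T < H K n := by
    refine lt_of_le_of_ne hT ?_
    rintro rfl
    exact lt_irrefl _ hne
  obtain ⟨v, hv, hvn⟩ := SetLike.exists_of_lt hlt
  obtain ⟨φ, hφv, hφ⟩ := Submodule.exists_dual_map_eq_bot_of_notMem hvn inferInstance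
  refine ⟨φ, ?_, v, hv, hφv⟩
  intro p hp
  have : φ p ∈ Submodule.map φ T := Submodule.mem_map_of_mem hp
  rw [hφ] at this
  simpa using this

/-- The subspace of `H 2` of elements of `V`, as a subspace of `H 2`, is in the kernel of `ρ`. -/
theorem comap_le_ker_rho {V T : Submodule K (S K)} (hVT : M V ≤ T) {φ : S K →ₗ[K] K}
    (hφ : ∀ p ∈ T, φ p = 0) :
    Submodule.comap (H K 2).subtype V ≤ LinearMap.ker (rho φ) := by
  intro w hw
  rw [LinearMap.mem_ker]
  funext j
  exact hφ _ (hVT (mem_M_X hw j))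

/-- `finrank` of `V ≤ H 2` as a subspace of `H 2`. -/
theorem finrank_comap_of_le {V : Submodule K (S K)} (hV : V ≤ H K 2) :
    finrank K (Submodule.comap (H K 2).subtype V) = finrank K V :=
  (Submodule.comapSubtypeEquivOfLe hV).finrank_eq

/-- **q ≥ 5**: five independent quadrics generate all cubics modulo `(f1, f2, f3)`. -/
theorem Cubics.growth2_q5 (h : Cubics f1 f2 f3) {V : Submodule K (S K)} (hV : V ≤ H K 2)
    (hq : 5 ≤ finrank K V) : M V ⊔ F f1 f2 f3 3 = H K 3 := by
  have hle : M V ⊔ F f1 f2 f3 3 ≤ H K 3 := sup_le (M_le_H hV) (F_le_H _ _ _ _)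
  have : FiniteDimensional K ↥(M V ⊔ F f1 f2 f3 3) := fd_of_le hle
  refine Submodule.eq_of_le_of_finrank_le hle ?_
  by_contra hlt
  push Not at hlt
  obtain ⟨φ, hφ, hφH⟩ := exists_functional hle hlt
  have hF : ∀ p ∈ F f1 f2 f3 3, φ p = 0 := fun p hp => hφ p (Submodule.mem_sup_right hp)
  have hrk := h.no_cube hF hφH
  have hker := Submodule.finrank_mono (comap_le_ker_rho (le_sup_left : M V ≤ _) hφ)
  rw [finrank_comap_of_le hV] at hker
  have hn := LinearMap.finrank_range_add_finrank_ker (rho φ)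
  rw [finrank_H] at hn
  have : (2 + 2).choose 2 = 6 := rfl
  omega

/-- Two elements, multiplication: a bound for `ℓ H2 + Q H1`. -/
theorem finrank_lin_quad {l Q : S K} (hl : l ∈ H K 1) (hl0 : l ≠ 0) (hQ : Q ∈ H K 2)
    (hlQ : ¬ l ∣ Q) :
    let Ψ : (H K 2 × H K 1) →ₗ[K] S K := (mulH l 2).coprod (mulH Q 1)
    8 ≤ finrank K (LinearMap.range Ψ) := by
  intro Ψ
  have hΨ : ∀ (w : H K 2) (u : H K 1), Ψ (w, u) = l * w + Q * u := fun w u => by simp [Ψ]
  have hker : LinearMap.ker Ψ ≤ Submodule.span K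
      {((⟨-Q, neg_mem hQ⟩ : H K 2), (⟨l, hl⟩ : H K 1))} := by
    rintro ⟨w, u⟩ hz
    rw [LinearMap.mem_ker, hΨ] at hz
    have hdvd : l ∣ (Q : S K) * u := ⟨-(w : S K), by linear_combination hz⟩
    rcases (prime_of_H1 hl hl0).dvd_or_dvd hdvd with hd | hd
    · exact absurd hd hlQ
    · obtain ⟨g, hg⟩ := hd
      have hu := dvd_factor hl u.2 (n := 0) hg
      obtain ⟨t, ht⟩ := H0_eq (hc_mem g 0)
      rw [ht] at hu
      have hw : (w : S K) = C t * (-Q) := by
        apply mul_left_cancel₀ hl0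
        rw [hu] at hz
        linear_combination hz
      refine Submodule.mem_span_singleton.2 ⟨t, ?_⟩
      apply Prod.ext
      · apply Subtype.ext
        simp only [Prod.smul_fst, SetLike.val_smul]
        rw [hw, smul_eq_C_mul]
      · apply Subtype.ext
        simp only [Prod.smul_snd, SetLike.val_smul]
        rw [hu, smul_eq_C_mul, mul_comm]
  have h1 : finrank K (LinearMap.ker Ψ) ≤ 1 :=
    (Submodule.finrank_mono hker).trans (le_of_eq (finrank_span_singleton (by
      intro hz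
      exact hl0 (congrArg Subtype.val (congrArg Prod.snd hz)))))
  have h2 := LinearMap.finrank_range_add_finrank_ker Ψ
  rw [Module.finrank_prod, finrank_H, finrank_H] at h2
  have : (2 + 2).choose 2 = 6 := rfl
  have : (1 + 2).choose 2 = 3 := rfl
  omega

/-- **q = 4**. -/
theorem Cubics.growth2_q4 (h : Cubics f1 f2 f3) {V : Submodule K (S K)} (hV : V ≤ H K 2)
    (hq : finrank K V = 4) : 9 ≤ finrank K ↥(M V ⊔ F f1 f2 f3 3) := by
  by_contra hlt
  push Not at hlt
  have hle : M V ⊔ F f1 f2 f3 3 ≤ H K 3 := sup_le (M_le_H hV) (F_le_H _ _ _ _)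
  have : FiniteDimensional K ↥(M V ⊔ F f1 f2 f3 3) := fd_of_le hle
  have : FiniteDimensional K V := fd_of_le hV
  have hH3 : finrank K (H K 3) = 10 := by rw [finrank_H]; rfl
  obtain ⟨φ, hφ, hφH⟩ := exists_functional hle (by omega)
  have hF : ∀ p ∈ F f1 f2 f3 3, φ p = 0 := fun p hp => hφ p (Submodule.mem_sup_right hp)
  have hrk := h.no_cube hF hφH
  have hVker := comap_le_ker_rho (le_sup_left : M V ≤ _) hφ
  have hker := Submodule.finrank_mono hVker
  rw [finrank_comap_of_le hV] at hker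
  have hn := LinearMap.finrank_range_add_finrank_ker (rho φ)
  rw [finrank_H] at hn
  have h6 : (2 + 2).choose 2 = 6 := rfl
  -- `ker ρ = V`
  have hkerV : LinearMap.ker (rho φ) = Submodule.comap (H K 2).subtype V := by
    symm
    refine Submodule.eq_of_le_of_finrank_le hVker ?_
    rw [finrank_comap_of_le hV]
    omega
  -- a linear form annihilating the range
  have hrange : finrank K (LinearMap.range (rho φ)) = 2 := by omega
  have hlt2 : LinearMap.range (rho φ) < ⊤ := by
    refine lt_of_le_of_ne le_top ?_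
    intro e
    rw [e, finrank_top, Module.finrank_fin_fun] at hrange
    omega
  obtain ⟨g, hg0, hg⟩ := Submodule.exists_le_ker_of_lt_top _ hlt2
  -- the form
  let c : Fin 3 → K := fun j => g (Pi.single j 1)
  have hgc : ∀ v : Fin 3 → K, g v = c 0 * v 0 + c 1 * v 1 + c 2 * v 2 := by
    intro v
    have e : v = v 0 • Pi.single 0 1 + v 1 • Pi.single 1 1 + v 2 • Pi.single 2 1 := by
      funext j
      fin_cases j <;> simp
    conv_lhs => rw [e]
    simp only [map_add, map_smul, smul_eq_mul, c]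
    ring
  let l : S K := C (c 0) * X 0 + C (c 1) * X 1 + C (c 2) * X 2
  have hCX : ∀ (t : K) (j : Fin 3), (C t * X j : S K) ∈ H K 1 := fun t j => by
    simpa using (isHomogeneous_C (Fin 3) t).mul (isHomogeneous_X K j)
  have hl : l ∈ H K 1 := add_mem (add_mem (hCX _ _) (hCX _ _)) (hCX _ _)
  have hl0 : l ≠ 0 := by
    intro hz
    obtain ⟨a, b, d⟩ := X_indep hz
    apply hg0
    refine LinearMap.ext fun v => ?_
    rw [hgc, a, b, d]
    simp
  -- `φ (l w) = 0` for quadrics `w`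
  have hφl : ∀ w ∈ H K 2, φ (l * w) = 0 := by
    intro w hw
    have : g (rho φ ⟨w, hw⟩) = 0 := hg ⟨_, rfl⟩
    rw [hgc] at this
    simp only [rho_apply] at this
    have e : l * w = c 0 • (X 0 * w) + c 1 • (X 1 * w) + c 2 • (X 2 * w) := by
      simp only [l, smul_eq_C_mul]; ring
    rw [e, map_add, map_add, map_smul, map_smul, map_smul]
    simpa using this
  -- `l H1 ≤ V`
  have hlV : ∀ u ∈ H K 1, l * u ∈ V := by
    intro u hu
    have hmem : (⟨l * u, mul_mem_H hl hu (by omega)⟩ : H K 2) ∈ LinearMap.ker (rho φ) := by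
      rw [LinearMap.mem_ker]
      funext j
      show φ (X j * (l * u)) = 0
      have e : (X j * (l * u) : S K) = l * (X j * u) := by ring
      rw [e]
      exact hφl _ (mul_mem_H (X_mem_H1 j) hu (by omega))
    rw [hkerV] at hmem
    exact hmem
  -- `Q`
  have hlH1 : finrank K (LinearMap.range (mulH l 1)) = 3 := by
    rw [LinearMap.finrank_range_of_inj, finrank_H]
    · rfl
    · rw [injective_iff_map_eq_zero]
      intro u hu
      exact Subtype.ext ((mul_eq_zero.1 hu).resolve_left hl0)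
  have hlt3 : LinearMap.range (mulH l 1) < V := by
    refine lt_of_le_of_ne ?_ ?_
    · rintro _ ⟨u, rfl⟩
      exact hlV _ u.2
    · intro e
      rw [e] at hlH1
      omega
  obtain ⟨Q, hQV, hQn⟩ := SetLike.exists_of_lt hlt3
  have hQH : Q ∈ H K 2 := hV hQV
  have hlQ : ¬ l ∣ Q := by
    rintro ⟨g', hg'⟩
    apply hQn
    have := dvd_factor (n := 1) hl hQH hg'
    exact ⟨⟨_, hc_mem g' 1⟩, this.symm⟩
  have hdim := finrank_lin_quad hl hl0 hQH hlQ
  set Ψ : (H K 2 × H K 1) →ₗ[K] S K := (mulH l 2).coprod (mulH Q 1) with hΨdef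
  have hΨ : ∀ (w : H K 2) (u : H K 1), Ψ (w, u) = l * w + Q * u := fun w u => by simp [Ψ]
  have hrangeT : LinearMap.range Ψ ≤ M V ⊔ F f1 f2 f3 3 := by
    refine le_trans ?_ (le_sup_left : M V ≤ _)
    rintro _ ⟨⟨w, u⟩, rfl⟩
    rw [hΨ]
    refine add_mem ?_ ?_
    · -- `l w ∈ M V`
      have hw : (w : S K) ∈ M (H K 1) := by
        rw [M_H]
        exact w.2
      have hle2 : M (H K 1) ≤ (M V).comap (LinearMap.mulLeft K l) := by
        refine iSup_le fun j => ?_
        rintro _ ⟨u', hu', rfl⟩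
        show l * (X j * u') ∈ M V
        have e : l * (X j * u') = X j * (l * u') := by ring
        rw [e]
        exact mem_M_X (hlV u' hu') j
      exact hle2 hw
    · rw [mul_comm]
      exact mul_mem_M u.2 hQV
  have hT : LinearMap.range Ψ = M V ⊔ F f1 f2 f3 3 :=
    Submodule.eq_of_le_of_finrank_le hrangeT (by omega)
  -- all `f_i` lie in `(l, Q)`
  have hmem : ∀ f ∈ F f1 f2 f3 3, f ∈ Ideal.span {l, Q} := by
    intro f hf
    have : f ∈ LinearMap.range Ψ := by
      rw [hT]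
      exact Submodule.mem_sup_right hf
    obtain ⟨⟨w, u⟩, rfl⟩ := this
    rw [hΨ]
    exact Ideal.mem_span_pair.2 ⟨w, u, by ring⟩
  exact h.obstruct2 hl hQH hl0 (by simp)
    (hmem _ ⟨f1_mem_Fid, h.h1⟩) (hmem _ ⟨f2_mem_Fid, h.h2⟩) (hmem _ ⟨f3_mem_Fid, h.h3⟩)

end Vale.Agent.P200
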