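import Vale.Agent.Lib.P200.Syz
import Vale.Agent.Lib.P200.Base2

/-!
# P200: growth from degree `2`, small subspaces, and from degrees `0` and `1`
-/

open MvPolynomial Module

namespace Vale.Agent.P200

variable {K : Type*} [Field K] {f1 f2 f3 : S K}

theorem Phi_mem_H {Q1 Q2 Q3 : S K} (h1 : Q1 ∈ H K 2) (h2 : Q2 ∈ H K 2) (h3 : Q3 ∈ H K 2)
    (x : H K 1 × H K 1 × H K 1) : Phi Q1 Q2 Q3 1 x ∈ H K 3 := by
  obtain ⟨a, b, c⟩ := x
  rw [Phi_apply]
  exact add_mem (add_mem (mul_mem_H h1 a.2 (by omega)) (mul_mem_H h2 b.2 (by omega)))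
    (mul_mem_H h3 c.2 (by omega))

/-- If the range of the linear syzygy map is small, the first two forms have a linear syzygy. -/
theorem LS_of_small {P1 P2 P3 : S K} (h1 : P1 ∈ H K 2) (h2 : P2 ∈ H K 2) (hi : Ind3 P1 P2 P3)
    (hsmall : finrank K (LinearMap.range (Phi P1 P2 P3 1)) ≤ 6) : LS P1 P2 := by
  by_contra hs
  have hn := LinearMap.finrank_range_add_finrank_ker (Phi P1 P2 P3 1)
  rw [finrank_triple] at hn
  have hk : 3 ≤ finrank K (LinearMap.ker (Phi P1 P2 P3 1)) := by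
    have : 3 * (1 + 2).choose 2 = 9 := rfl
    omega
  -- the projection to the third coordinate
  let π : LinearMap.ker (Phi P1 P2 P3 1) →ₗ[K] H K 1 :=
    (LinearMap.snd K _ _).comp ((LinearMap.snd K _ _).comp (Submodule.subtype _))
  have hinj : Function.Injective π := by
    rw [injective_iff_map_eq_zero]
    rintro ⟨⟨a, b, c⟩, hx⟩ hπ
    have hc : c = 0 := hπ
    subst hc
    rw [LinearMap.mem_ker, Phi_apply] at hx
    simp only [ZeroMemClass.coe_zero, mul_zero, add_zero] at hx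
    by_cases ha : (a : S K) = 0 ∧ (b : S K) = 0
    · have ha' : a = 0 := Subtype.ext ha.1
      have hb' : b = 0 := Subtype.ext ha.2
      subst ha' hb'
      rfl
    · exfalso
      apply hs
      refine ⟨a, b, a.2, b.2, ?_, by linear_combination hx⟩
      by_contra hh
      push Not at hh
      exact ha hh
  have hsurj : Function.Surjective π := by
    rw [← LinearMap.range_eq_top]
    refine Submodule.eq_top_of_finrank_eq ?_
    rw [LinearMap.finrank_range_of_inj hinj]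
    have : finrank K (H K 1) = 3 := by rw [finrank_H]; rfl
    have hle : finrank K (LinearMap.ker (Phi P1 P2 P3 1)) ≤ finrank K (H K 1) :=
      LinearMap.finrank_le_finrank_of_injective hinj
    omega
  refine zigzag h1 h2 hi hs fun j => ?_
  obtain ⟨⟨⟨a, b, c⟩, hx⟩, hπ⟩ := hsurj ⟨X j, X_mem_H1 j⟩
  rw [LinearMap.mem_ker, Phi_apply] at hx
  have hc : (c : S K) = X j := congrArg Subtype.val hπ
  refine ⟨-a, -b, neg_mem a.2, neg_mem b.2, ?_⟩
  rw [hc] at hx
  linear_combination hx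

/-- One factor step. -/
theorem factor_step {c m Q : S K} (hc : c ∈ H K 1) (hm : m ∈ H K 1) (hQ : Q ∈ H K 2)
    (hc0 : c ≠ 0) (hQc : ¬ c ∣ Q) (hi : Ind2 (c * m) Q) (hs : LS (c * m) Q) : m ∣ Q := by
  have hm0 : m ≠ 0 := by
    rintro rfl
    exact hi.left_ne (by simp)
  obtain ⟨c', n1, n3, hc', hn1, hn3, e1, e2⟩ := hs.factor hQ hi
  have hc'0 : c' ≠ 0 := by
    rintro rfl
    exact hi.right_ne (by simpa using e2)
  have hd : c' ∣ c * m := ⟨n1, e1⟩
  rcases (prime_of_H1 hc' hc'0).dvd_or_dvd hd with hd | hd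
  · exfalso
    obtain ⟨q, hq⟩ := hd
    obtain ⟨t, ht⟩ := H1_dvd_H1 hc' hc hq
    have ht0 : t ≠ 0 := by
      rintro rfl
      apply hc0
      rw [ht]; simp
    apply hQc
    refine ⟨C t⁻¹ * n3, ?_⟩
    rw [e2, ht]
    have : (C t * C t⁻¹ : S K) = 1 := by
      rw [← C_mul, mul_inv_cancel₀ ht0, C_1]
    linear_combination (-c' * n3) * this
  · obtain ⟨q, hq⟩ := hd
    obtain ⟨t, ht⟩ := H1_dvd_H1 hc' hm hq
    have ht0 : t ≠ 0 := by
      rintro rfl
      apply hm0
      rw [ht]; simp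
    refine ⟨C t⁻¹ * n3, ?_⟩
    rw [e2, ht]
    have : (C t * C t⁻¹ : S K) = 1 := by
      rw [← C_mul, mul_inv_cancel₀ ht0, C_1]
    linear_combination (-c' * n3) * this

/-- **Common factor**: if all the independent pairs have a linear syzygy, the three forms have a
common linear factor. -/
theorem common_factor {Q1 Q2 Q3 : S K} (h1 : Q1 ∈ H K 2) (h2 : Q2 ∈ H K 2) (h3 : Q3 ∈ H K 2)
    (hi : Ind3 Q1 Q2 Q3) (s12 : LS Q1 Q2) (s13 : LS Q1 Q3) (s23 : LS Q2 Q3)
    (s123 : LS (Q1 + Q2) Q3) :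
    ∃ l l1 l2 l3 : S K, l ∈ H K 1 ∧ l1 ∈ H K 1 ∧ l2 ∈ H K 1 ∧ l3 ∈ H K 1 ∧ l ≠ 0 ∧
      Q1 = l * l1 ∧ Q2 = l * l2 ∧ Q3 = l * l3 := by
  have i12 : Ind2 Q1 Q2 := fun a b e => by
    obtain ⟨x, y, -⟩ := hi a b 0 (by simpa using e)
    exact ⟨x, y⟩
  have i13 : Ind2 Q1 Q3 := fun a b e => by
    obtain ⟨x, -, y⟩ := hi a 0 b (by simpa using e)
    exact ⟨x, y⟩
  have i23 : Ind2 Q2 Q3 := fun a b e => by
    obtain ⟨-, x, y⟩ := hi 0 a b (by simpa using e)
    exact ⟨x, y⟩
  have i123 : Ind2 (Q1 + Q2) Q3 := fun a b e => by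
    obtain ⟨x, -, y⟩ := hi a a b (by
      rw [smul_add] at e
      exact e)
    exact ⟨x, y⟩
  obtain ⟨c, m1, m2, hc, hm1, hm2, e1, e2⟩ := s12.factor h2 i12
  have hc0 : c ≠ 0 := by
    rintro rfl
    exact i12.left_ne (by simpa using e1)
  by_cases hdvd : c ∣ Q3
  · obtain ⟨q, hq⟩ := hdvd
    exact ⟨c, m1, m2, _, hc, hm1, hm2, hc_mem q 1, hc0, e1, e2, dvd_factor hc h3 hq⟩
  exfalso
  -- `m1`, `m2`, `m1 + m2` all divide `Q3`
  have d1 : m1 ∣ Q3 := factor_step hc hm1 h3 hc0 hdvd (e1 ▸ i13) (e1 ▸ s13)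
  have d2 : m2 ∣ Q3 := factor_step hc hm2 h3 hc0 hdvd (e2 ▸ i23) (e2 ▸ s23)
  have e12 : Q1 + Q2 = c * (m1 + m2) := by rw [e1, e2]; ring
  have d3 : (m1 + m2) ∣ Q3 :=
    factor_step hc (add_mem hm1 hm2) h3 hc0 hdvd (e12 ▸ i123) (e12 ▸ s123)
  have hQ3 : Q3 ≠ 0 := i13.right_ne
  -- independence of `m1, m2`
  have im : Ind2 m1 m2 := by
    intro a b e
    apply i12
    rw [e1, e2]
    have : c * (a • m1 + b • m2) = 0 := by rw [e]; simp
    rw [← this, mul_add, mul_smul_comm, mul_smul_comm]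
  have hm10 : m1 ≠ 0 := im.left_ne
  have hm20 : m2 ≠ 0 := im.right_ne
  -- two non-proportional linear forms
  have nd : ∀ {u v : S K}, u ∈ H K 1 → v ∈ H K 1 → u ≠ 0 → Ind2 u v → ¬ v ∣ u := by
    rintro u v hu hv hu0 iuv ⟨q, hq⟩
    obtain ⟨t, ht⟩ := H1_dvd_H1 hv hu hq
    have : (1 : K) • u + (-t) • v = 0 := by
      rw [one_smul, neg_smul, smul_eq_C_mul, ht]
      ring
    exact one_ne_zero (iuv _ _ this).1
  obtain ⟨n, hn⟩ := d1
  have hn1 : n ∈ H K 1 := by
    have := dvd_factor (n := 1) hm1 h3 hn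
    have hh : n = homogeneousComponent 1 n := mul_left_cancel₀ hm10 (hn.symm.trans this)
    rw [hh]
    exact hc_mem n 1
  have d4 : m2 ∣ n := by
    rw [hn] at d2
    refine ((prime_of_H1 hm2 hm20).dvd_or_dvd d2).resolve_left ?_
    exact nd hm1 hm2 hm10 im
  obtain ⟨q, hq⟩ := d4
  obtain ⟨t, ht⟩ := H1_dvd_H1 hm2 hn1 hq
  have hQt : Q3 = C t * (m1 * m2) := by rw [hn, ht]; ring
  have ht0 : t ≠ 0 := by
    rintro rfl
    apply hQ3
    rw [hQt]; simp
  have h30 : m1 + m2 ≠ 0 := by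
    intro hz
    have : (1 : K) • m1 + (1 : K) • m2 = 0 := by simpa using hz
    exact one_ne_zero (im _ _ this).1
  have hm12 : m1 + m2 ∈ H K 1 := add_mem hm1 hm2
  have d5 : (m1 + m2) ∣ m1 * m2 := by
    obtain ⟨g, hg⟩ := d3
    refine ⟨C t⁻¹ * g, ?_⟩
    have hC : (C t⁻¹ * C t : S K) = 1 := by
      rw [← C_mul, inv_mul_cancel₀ ht0, C_1]
    calc m1 * m2 = (C t⁻¹ * C t) * (m1 * m2) := by rw [hC, one_mul]
      _ = C t⁻¹ * Q3 := by rw [hQt]; ring
      _ = (m1 + m2) * (C t⁻¹ * g) := by rw [hg]; ring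
  rcases (prime_of_H1 hm12 h30).dvd_or_dvd d5 with d6 | d6
  · refine nd hm1 hm12 hm10 ?_ d6
    intro a b e
    have : (a + b) • m1 + b • m2 = 0 := by
      rw [add_smul]
      rw [smul_add] at e
      rw [← e]
      ring
    obtain ⟨x, y⟩ := im _ _ this
    refine ⟨?_, y⟩
    rw [y, add_zero] at x
    exact x
  · refine nd hm2 hm12 hm20 ?_ d6
    intro a b e
    have : b • m1 + (a + b) • m2 = 0 := by
      rw [add_smul]
      rw [smul_add] at e
      rw [← e]
      ring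
    obtain ⟨y, x⟩ := im _ _ this
    refine ⟨?_, y⟩
    rw [y, add_zero] at x
    exact x

/-! ### intersection with the cubics of `(f1, f2, f3)` -/

theorem F3_mem (h : Cubics f1 f2 f3) {I : Ideal (S K)} (hF : ∀ p ∈ F f1 f2 f3 3, p ∈ I) :
    f1 ∈ I ∧ f2 ∈ I ∧ f3 ∈ I :=
  ⟨hF _ ⟨f1_mem_Fid, h.h1⟩, hF _ ⟨f2_mem_Fid, h.h2⟩, hF _ ⟨f3_mem_Fid, h.h3⟩⟩

/-- A space of multiples of `p` meets `F 3` in dimension at most one. -/
theorem Cubics.inf_le_one (h : Cubics f1 f2 f3) {W : Submodule K (S K)} {p : S K} {e : ℕ}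
    (hp : p ∈ H K e) (hp0 : p ≠ 0) (he : e = 1 ∨ e = 2) (hW : ∀ a ∈ W, p ∣ a) :
    finrank K ↥(W ⊓ F f1 f2 f3 3) ≤ 1 := by
  by_contra hh
  push Not at hh
  have hF3 : finrank K (F f1 f2 f3 3) = 3 := h.finrank_F (by omega)
  set U := W ⊓ F f1 f2 f3 3 with hU
  have hUF : U ≤ F f1 f2 f3 3 := inf_le_right
  -- find `g`
  obtain ⟨g, hg, hmem⟩ : ∃ g ∈ H K 3, ∀ f ∈ F f1 f2 f3 3, f ∈ Ideal.span {p, g} := by
    by_cases hUe : U = F f1 f2 f3 3
    · refine ⟨0, zero_mem _, fun f hf => ?_⟩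
      rw [← hUe] at hf
      obtain ⟨q, hq⟩ := hW f hf.1
      exact Ideal.mem_span_pair.2 ⟨q, 0, by rw [hq]; ring⟩
    · have hlt : U < F f1 f2 f3 3 := lt_of_le_of_ne hUF hUe
      obtain ⟨g, hg, hgn⟩ := SetLike.exists_of_lt hlt
      refine ⟨g, hg.2, fun f hf => ?_⟩
      have hle : U ⊔ Submodule.span K {g} ≤ F f1 f2 f3 3 :=
        sup_le hUF ((Submodule.span_singleton_le_iff_mem _ _).2 hg)
      have hlt2 : U < U ⊔ Submodule.span K {g} := by
        refine lt_of_le_of_ne le_sup_left ?_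
        intro e
        apply hgn
        rw [e]
        exact Submodule.mem_sup_right (Submodule.mem_span_singleton_self g)
      have : FiniteDimensional K ↥(U ⊔ Submodule.span K {g}) :=
        Submodule.finiteDimensional_of_le hle
      have h1 := Submodule.finrank_lt_finrank_of_lt hlt2
      have h2 : U ⊔ Submodule.span K {g} = F f1 f2 f3 3 := by
        refine Submodule.eq_of_le_of_finrank_le hle ?_
        omega
      rw [← h2] at hf
      obtain ⟨u, hu, w, hw, rfl⟩ := Submodule.mem_sup.1 hf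
      obtain ⟨t, rfl⟩ := Submodule.mem_span_singleton.1 hw
      obtain ⟨q, hq⟩ := hW u hu.1
      exact Ideal.mem_span_pair.2 ⟨q, C t, by rw [hq, smul_eq_C_mul]; ring⟩
  obtain ⟨m1, m2, m3⟩ := F3_mem h hmem
  refine h.obstruct2 hp hg hp0 ?_ m1 m2 m3
  rcases he with rfl | rfl <;> simp

/-- Consequence of `inf_le_one` for the dimension of the sum. -/
theorem Cubics.finrank_sup_F3 (h : Cubics f1 f2 f3) {W : Submodule K (S K)} {p : S K} {e : ℕ}
    (hp : p ∈ H K e) (hp0 : p ≠ 0) (he : e = 1 ∨ e = 2) (hW : ∀ a ∈ W, p ∣ a)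
    (hWH : W ≤ H K 3) : finrank K W + 2 ≤ finrank K ↥(W ⊔ F f1 f2 f3 3) := by
  have : FiniteDimensional K W := fd_of_le hWH
  have h1 := Submodule.finrank_sup_add_finrank_inf_eq W (F f1 f2 f3 3)
  have h2 := h.inf_le_one hp hp0 he hW
  have hF3 : finrank K (F f1 f2 f3 3) = 3 := h.finrank_F (by omega)
  omega

/-- Monotonicity helper. -/
theorem finrank_sup_mono {W W' T : Submodule K (S K)} (hW : W ≤ W') (hT : W' ≤ H K 3)
    (hT' : T ≤ H K 3) : finrank K ↥(W ⊔ T) ≤ finrank K ↥(W' ⊔ T) := by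
  have : FiniteDimensional K ↥(W' ⊔ T) := fd_of_le (sup_le hT hT')
  exact Submodule.finrank_mono (sup_le_sup_right hW T)

/-! ### q = 1 -/

theorem Cubics.growth2_q1 (h : Cubics f1 f2 f3) {V : Submodule K (S K)} (hV : V ≤ H K 2)
    {Q : S K} (hQ : Q ∈ V) (hQ0 : Q ≠ 0) : 5 ≤ finrank K ↥(M V ⊔ F f1 f2 f3 3) := by
  set W := LinearMap.range (mulH Q 1) with hWdef
  have hWV : W ≤ M V := by
    rintro _ ⟨u, rfl⟩
    rw [mulH_apply, mul_comm]
    exact mul_mem_M u.2 hQ
  have hfr : finrank K W = 3 := by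
    rw [hWdef, LinearMap.finrank_range_of_inj, finrank_H]
    · rfl
    · rw [injective_iff_map_eq_zero]
      intro u hu
      exact Subtype.ext ((mul_eq_zero.1 hu).resolve_left hQ0)
  have hM := M_le_H hV
  have h1 := h.finrank_sup_F3 (W := W) (hV hQ) hQ0 (Or.inr rfl)
    (by
      rintro _ ⟨u, rfl⟩
      exact ⟨u, rfl⟩) (hWV.trans hM)
  have h2 := finrank_sup_mono (T := F f1 f2 f3 3) hWV hM (F_le_H _ _ _ _)
  omega

/-! ### q = 2 -/

/-- The multiplication map for two forms on linear forms. -/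
noncomputable def Pair (p q : S K) : (H K 1 × H K 1) →ₗ[K] S K :=
  (mulH p 1).coprod (mulH q 1)

theorem Pair_apply (p q : S K) (u w : H K 1) : Pair p q (u, w) = p * u + q * w := by
  simp [Pair]

/-- Kernel of the multiplication map for two independent linear forms. -/
theorem finrank_range_Pair_linear {m1 m2 : S K} (h1 : m1 ∈ H K 1) (h2 : m2 ∈ H K 1)
    (hi : Ind2 m1 m2) : 5 ≤ finrank K (LinearMap.range (Pair m1 m2)) := by
  have hm10 := hi.left_ne
  have hm20 := hi.right_ne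
  have hker : LinearMap.ker (Pair m1 m2) ≤ Submodule.span K
      {((⟨m2, h2⟩ : H K 1), (⟨-m1, neg_mem h1⟩ : H K 1))} := by
    rintro ⟨u, w⟩ hz
    rw [LinearMap.mem_ker, Pair_apply] at hz
    have hdvd : m1 ∣ m2 * (w : S K) := ⟨-(u : S K), by linear_combination hz⟩
    rcases (prime_of_H1 h1 hm10).dvd_or_dvd hdvd with hd | hd
    · exfalso
      obtain ⟨q, hq⟩ := hd
      obtain ⟨t, ht⟩ := H1_dvd_H1 h1 h2 hq
      have : (-t) • m1 + (1 : K) • m2 = 0 := by
        rw [one_smul, neg_smul, smul_eq_C_mul, ht]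
        ring
      exact one_ne_zero (hi _ _ this).2
    · obtain ⟨g, hg⟩ := hd
      have hw := dvd_factor (n := 0) h1 w.2 hg
      obtain ⟨t, ht⟩ := H0_eq (hc_mem g 0)
      rw [ht] at hw
      have hu : (u : S K) = C (-t) * m2 := by
        apply mul_left_cancel₀ hm10
        rw [hw] at hz
        rw [C_neg]
        linear_combination hz
      refine Submodule.mem_span_singleton.2 ⟨-t, ?_⟩
      apply Prod.ext
      · apply Subtype.ext
        simp only [Prod.smul_fst, SetLike.val_smul]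
        rw [hu, smul_eq_C_mul]
      · apply Subtype.ext
        simp only [Prod.smul_snd, SetLike.val_smul]
        rw [hw, smul_eq_C_mul, C_neg]
        ring
  have h3 : finrank K (LinearMap.ker (Pair m1 m2)) ≤ 1 :=
    (Submodule.finrank_mono hker).trans (le_of_eq (finrank_span_singleton (by
      intro hz
      exact hm20 (congrArg Subtype.val (congrArg Prod.fst hz)))))
  have h4 := LinearMap.finrank_range_add_finrank_ker (Pair m1 m2)
  rw [Module.finrank_prod, finrank_H] at h4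
  have : (1 + 2).choose 2 = 3 := rfl
  omega

theorem Pair_range_le_M {V : Submodule K (S K)} {Q1 Q2 : S K} (h1 : Q1 ∈ V) (h2 : Q2 ∈ V) :
    LinearMap.range (Pair Q1 Q2) ≤ M V := by
  rintro _ ⟨⟨u, w⟩, rfl⟩
  rw [Pair_apply, mul_comm Q1, mul_comm Q2]
  exact add_mem (mul_mem_M u.2 h1) (mul_mem_M w.2 h2)

/-- Two independent elements of `V`. -/
theorem Cubics.growth2_q2 (h : Cubics f1 f2 f3) {V : Submodule K (S K)} (hV : V ≤ H K 2)
    {Q1 Q2 : S K} (h1 : Q1 ∈ V) (h2 : Q2 ∈ V) (hi : Ind2 Q1 Q2) :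
    7 ≤ finrank K ↥(M V ⊔ F f1 f2 f3 3) := by
  have hM := M_le_H hV
  have hle : M V ⊔ F f1 f2 f3 3 ≤ H K 3 := sup_le hM (F_le_H _ _ _ _)
  have : FiniteDimensional K ↥(M V ⊔ F f1 f2 f3 3) := fd_of_le hle
  set W := LinearMap.range (Pair Q1 Q2) with hWdef
  have hWV : W ≤ M V := Pair_range_le_M h1 h2
  have hWH := hWV.trans hM
  have hQ1H := hV h1
  have hQ2H := hV h2
  by_cases hs : LS Q1 Q2
  · obtain ⟨c, m1, m2, hc, hm1, hm2, e1, e2⟩ := hs.factor hQ2H hi
    have hc0 : c ≠ 0 := by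
      rintro rfl
      exact hi.left_ne (by simpa using e1)
    have im : Ind2 m1 m2 := by
      intro a b e
      apply hi
      rw [e1, e2]
      have : c * (a • m1 + b • m2) = 0 := by rw [e]; simp
      rw [← this, mul_add, mul_smul_comm, mul_smul_comm]
    -- the range of `Pair Q1 Q2` has the dimension of that of `Pair m1 m2`
    have hdim : finrank K (LinearMap.range (Pair m1 m2)) ≤ finrank K W := by
      have hle2 : LinearMap.range (Pair m1 m2) ≤ (H K 2) := by
        rintro _ ⟨⟨u, w⟩, rfl⟩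
        rw [Pair_apply]
        exact add_mem (mul_mem_H hm1 u.2 (by omega)) (mul_mem_H hm2 w.2 (by omega))
      let μ : LinearMap.range (Pair m1 m2) →ₗ[K] W :=
        LinearMap.codRestrict W ((LinearMap.mulLeft K c).comp (Submodule.subtype _)) (by
          rintro ⟨_, ⟨⟨u, w⟩, rfl⟩⟩
          refine ⟨(u, w), ?_⟩
          simp only [LinearMap.comp_apply, Submodule.subtype_apply, LinearMap.mulLeft_apply]
          rw [Pair_apply, Pair_apply, e1, e2]
          ring)
      refine LinearMap.finrank_le_finrank_of_injective (f := μ) ?_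
      rw [injective_iff_map_eq_zero]
      rintro ⟨x, hx⟩ hz
      have : c * x = 0 := congrArg Subtype.val hz
      exact Subtype.ext ((mul_eq_zero.1 this).resolve_left hc0)
    have h5 := finrank_range_Pair_linear hm1 hm2 im
    have h6 := h.finrank_sup_F3 (W := W) hc hc0 (Or.inl rfl)
      (by
        rintro _ ⟨⟨u, w⟩, rfl⟩
        rw [Pair_apply, e1, e2]
        exact ⟨m1 * u + m2 * w, by ring⟩) hWH
    have h7 := finrank_sup_mono (T := F f1 f2 f3 3) hWV hM (F_le_H _ _ _ _)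
    omega
  · -- no linear syzygy
    have hinj : Function.Injective (Pair Q1 Q2) := by
      rw [injective_iff_map_eq_zero]
      rintro ⟨u, w⟩ hz
      rw [Pair_apply] at hz
      by_contra hne
      apply hs
      refine ⟨u, w, u.2, w.2, ?_, by linear_combination hz⟩
      by_contra hh
      push Not at hh
      exact hne (Prod.ext (Subtype.ext hh.1) (Subtype.ext hh.2))
    have hfr : finrank K W = 6 := by
      rw [hWdef, LinearMap.finrank_range_of_inj hinj, Module.finrank_prod, finrank_H]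
      rfl
    by_contra hlt
    push Not at hlt
    have hWT : W ≤ M V ⊔ F f1 f2 f3 3 := hWV.trans le_sup_left
    have hr : W = M V ⊔ F f1 f2 f3 3 := Submodule.eq_of_le_of_finrank_le hWT (by omega)
    have hmem : ∀ f ∈ F f1 f2 f3 3, f ∈ Ideal.span {Q1, Q2} := by
      intro f hf
      have : f ∈ W := by
        rw [hr]
        exact Submodule.mem_sup_right hf
      obtain ⟨⟨u, w⟩, rfl⟩ := this
      rw [Pair_apply]
      exact Ideal.mem_span_pair.2 ⟨u, w, by ring⟩
    obtain ⟨m1, m2, m3⟩ := F3_mem h hmem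
    exact h.obstruct2 hQ1H hQ2H hi.left_ne (by simp) m1 m2 m3

end Vale.Agent.P200
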