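import Vale.Agent.Lib.P200.Dual

/-!
# P200: growth in degrees `3, 4, 5` follows from growth in degrees `2, 1, 0`
-/

open MvPolynomial Module

namespace Vale.Agent.P200

variable {K : Type*} [Field K] {f1 f2 f3 : S K}

private theorem table3 : ∀ v, v < 11 → ∀ T, T < 16 → 3 ≤ v → 9 ≤ T →
    gT 2 (15 - T) + 3 + v ≤ 13 → gT 3 (v - 3) + 9 ≤ T := by decide

private theorem table4 : ∀ v, v < 16 → ∀ T, T < 22 → 9 ≤ v → 18 ≤ T →
    gT 1 (21 - T) + 0 + v ≤ 15 → gT 4 (v - 9) + 18 ≤ T := by decide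

private theorem table5 : ∀ v, v < 22 → ∀ T, T < 29 → 18 ≤ v → 27 ≤ T →
    gT 0 (28 - T) + 0 + v ≤ 21 → gT 5 (v - 18) + 27 ≤ T := by decide

/-- The growth bound in all degrees from the growth bound in degrees `≤ 2`. -/
theorem Cubics.growth_of_base (h : Cubics f1 f2 f3)
    (hb : ∀ e ≤ 2, ∀ W : Submodule K (S K), F f1 f2 f3 e ≤ W → W ≤ H K e →
      gT e (finrank K W - fdim e) + fdim (e + 1) ≤ finrank K ↥(M W ⊔ F f1 f2 f3 (e + 1)))
    {d : ℕ} (hd : d ≤ 5) {V : Submodule K (S K)} (hFV : F f1 f2 f3 d ≤ V) (hV : V ≤ H K d) :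
    gT d (finrank K V - fdim d) + fdim (d + 1) ≤ finrank K ↥(M V ⊔ F f1 f2 f3 (d + 1)) := by
  by_cases hd2 : d ≤ 2
  · exact hb d hd2 V hFV hV
  obtain ⟨τ, hτ⟩ := h.exists_tau
  have : FiniteDimensional K V := fd_of_le hV
  have hTle : M V ⊔ F f1 f2 f3 (d + 1) ≤ H K (d + 1) := sup_le (M_le_H hV) (F_le_H _ _ _ _)
  have : FiniteDimensional K ↥(M V ⊔ F f1 f2 f3 (d + 1)) := fd_of_le hTle
  have hv1 : finrank K (F f1 f2 f3 d) ≤ finrank K V := Submodule.finrank_mono hFV
  have hv2 : finrank K V ≤ finrank K (H K d) := Submodule.finrank_mono hV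
  have hT1 : finrank K (F f1 f2 f3 (d + 1)) ≤ finrank K ↥(M V ⊔ F f1 f2 f3 (d + 1)) :=
    Submodule.finrank_mono le_sup_right
  have hT2 : finrank K ↥(M V ⊔ F f1 f2 f3 (d + 1)) ≤ finrank K (H K (d + 1)) :=
    Submodule.finrank_mono hTle
  rw [h.finrank_F (by omega)] at hv1 hT1
  rw [finrank_H] at hv2 hT2
  have hd3 : d = 3 ∨ d = 4 ∨ d = 5 := by omega
  rcases hd3 with rfl | rfl | rfl
  · have r := h.dual_step hτ (d := 3) (e := 2) (by omega) hFV hV (hb 2 le_rfl)
    generalize finrank K V = v at *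
    generalize finrank K ↥(M V ⊔ F f1 f2 f3 (3 + 1)) = T at *
    exact table3 v (by simpa [Nat.choose] using Nat.lt_succ_of_le hv2) T
      (by simpa [Nat.choose] using Nat.lt_succ_of_le hT2) (by simpa [fdim] using hv1)
      (by simpa [fdim] using hT1) (by simpa [fdim, Nat.choose] using r)
  · have r := h.dual_step hτ (d := 4) (e := 1) (by omega) hFV hV (hb 1 (by omega))
    generalize finrank K V = v at *
    generalize finrank K ↥(M V ⊔ F f1 f2 f3 (4 + 1)) = T at *
    exact table4 v (by simpa [Nat.choose] using Nat.lt_succ_of_le hv2) T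
      (by simpa [Nat.choose] using Nat.lt_succ_of_le hT2) (by simpa [fdim] using hv1)
      (by simpa [fdim] using hT1) (by simpa [fdim, Nat.choose] using r)
  · have r := h.dual_step hτ (d := 5) (e := 0) (by omega) hFV hV (hb 0 (by omega))
    generalize finrank K V = v at *
    generalize finrank K ↥(M V ⊔ F f1 f2 f3 (5 + 1)) = T at *
    exact table5 v (by simpa [Nat.choose] using Nat.lt_succ_of_le hv2) T
      (by simpa [Nat.choose] using Nat.lt_succ_of_le hT2) (by simpa [fdim] using hv1)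
      (by simpa [fdim] using hT1) (by simpa [fdim, Nat.choose] using r)

end Vale.Agent.P200
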