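import Vale.Agent.Lib.P200.Base1
import Vale.Agent.Lib.P200.GrowthHigh

/-!
# P200: growth from degree `2`, `q = 3`, and the assembly of the base cases
-/

open MvPolynomial Module

namespace Vale.Agent.P200

variable {K : Type*} [Field K] {f1 f2 f3 : S K}

/-- Two proportional syzygy vectors are impossible. -/
theorem rank_one_false {s1 s2 s3 t1 t2 t3 Q1 Q2 Q3 : S K} (hs1 : s1 ∈ H K 1) (hs2 : s2 ∈ H K 1)
    (hs3 : s3 ∈ H K 1) (ht1 : t1 ∈ H K 1) (hs10 : s1 ≠ 0)
    (m2 : s1 * t2 = s2 * t1) (m3 : s1 * t3 = s3 * t1)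
    (hsyz : s1 * Q1 + s2 * Q2 + s3 * Q3 = 0) (hi : Ind3 Q1 Q2 Q3)
    (hind : ∀ a b : K, C a * s1 + C b * t1 = 0 → C a * s2 + C b * t2 = 0 →
      C a * s3 + C b * t3 = 0 → a = 0 ∧ b = 0) : False := by
  by_cases ht10 : t1 = 0
  · subst ht10
    have h2 : t2 = 0 := by
      have : s1 * t2 = 0 := by rw [m2]; simp
      exact (mul_eq_zero.1 this).resolve_left hs10
    have h3 : t3 = 0 := by
      have : s1 * t3 = 0 := by rw [m3]; simp
      exact (mul_eq_zero.1 this).resolve_left hs10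
    have := hind 0 1 (by simp) (by simp [h2]) (by simp [h3])
    exact one_ne_zero this.2
  by_cases hd : s1 ∣ t1
  · obtain ⟨q, hq⟩ := hd
    obtain ⟨r, hr⟩ := H1_dvd_H1 hs1 ht1 hq
    have h2 : t2 = C r * s2 := by
      apply mul_left_cancel₀ hs10
      rw [m2, hr]; ring
    have h3 : t3 = C r * s3 := by
      apply mul_left_cancel₀ hs10
      rw [m3, hr]; ring
    have := hind (-r) 1 (by rw [hr, C_neg, C_1]; ring) (by rw [h2, C_neg, C_1]; ring)
      (by rw [h3, C_neg, C_1]; ring)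
    exact one_ne_zero this.2
  · have hp := prime_of_H1 hs1 hs10
    have d2 : s1 ∣ s2 := by
      refine (hp.dvd_or_dvd (a := s2) (b := t1) ⟨t2, m2.symm⟩).resolve_right hd
    have d3 : s1 ∣ s3 := by
      refine (hp.dvd_or_dvd (a := s3) (b := t1) ⟨t3, m3.symm⟩).resolve_right hd
    obtain ⟨q2, hq2⟩ := d2
    obtain ⟨q3, hq3⟩ := d3
    obtain ⟨a, ha⟩ := H1_dvd_H1 hs1 hs2 hq2
    obtain ⟨b, hb⟩ := H1_dvd_H1 hs1 hs3 hq3
    have e : s1 * (Q1 + C a * Q2 + C b * Q3) = 0 := by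
      rw [ha, hb] at hsyz
      linear_combination hsyz
    have e2 := (mul_eq_zero.1 e).resolve_left hs10
    have : (1 : K) • Q1 + a • Q2 + b • Q3 = 0 := by
      rw [one_smul, smul_eq_C_mul, smul_eq_C_mul]
      exact e2
    exact one_ne_zero (hi _ _ _ this).1

theorem Ind3.rot {Q1 Q2 Q3 : S K} (h : Ind3 Q1 Q2 Q3) : Ind3 Q2 Q3 Q1 := by
  intro a b c e
  obtain ⟨x, y, z⟩ := h c a b (by rw [← e]; ring)
  exact ⟨y, z, x⟩

theorem Ind3.swap23 {Q1 Q2 Q3 : S K} (h : Ind3 Q1 Q2 Q3) : Ind3 Q1 Q3 Q2 := by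
  intro a b c e
  obtain ⟨x, y, z⟩ := h a c b (by rw [← e]; ring)
  exact ⟨x, z, y⟩

/-- **Two independent linear syzygies** give too few forms of degree 7. -/
theorem Cubics.obstruct3 (h : Cubics f1 f2 f3) {Q1 Q2 Q3 : S K} (h1 : Q1 ∈ H K 2)
    (h2 : Q2 ∈ H K 2) (h3 : Q3 ∈ H K 2) (hi : Ind3 Q1 Q2 Q3)
    (hk : 2 ≤ finrank K (LinearMap.ker (Phi Q1 Q2 Q3 1)))
    (hf1 : f1 ∈ Fid Q1 Q2 Q3) (hf2 : f2 ∈ Fid Q1 Q2 Q3) (hf3 : f3 ∈ Fid Q1 Q2 Q3) : False := by
  -- two independent syzygies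
  have hpos : 0 < finrank K (LinearMap.ker (Phi Q1 Q2 Q3 1)) := by omega
  have hnt : Nontrivial (LinearMap.ker (Phi Q1 Q2 Q3 1)) := Module.nontrivial_of_finrank_pos hpos
  obtain ⟨x, hx0⟩ := exists_ne (0 : LinearMap.ker (Phi Q1 Q2 Q3 1))
  have hone : 1 < finrank K (LinearMap.ker (Phi Q1 Q2 Q3 1)) := by omega
  obtain ⟨y, hy⟩ := exists_linearIndependent_pair_of_one_lt_finrank
    (R := K) (M := LinearMap.ker (Phi Q1 Q2 Q3 1)) hone hx0
  replace hy := LinearIndependent.pair_iff.1 hy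
  obtain ⟨⟨⟨s1, s2, s3⟩, hx⟩, rfl⟩ : ∃ z : LinearMap.ker (Phi Q1 Q2 Q3 1), z = x := ⟨x, rfl⟩
  obtain ⟨⟨⟨t1, t2, t3⟩, hy'⟩, rfl⟩ : ∃ z : LinearMap.ker (Phi Q1 Q2 Q3 1), z = y := ⟨y, rfl⟩
  rw [LinearMap.mem_ker, Phi_apply] at hx hy'
  have hind : ∀ a b : K, (C a : S K) * (s1 : S K) + (C b : S K) * (t1 : S K) = 0 →
      (C a : S K) * (s2 : S K) + (C b : S K) * (t2 : S K) = 0 →
      (C a : S K) * (s3 : S K) + (C b : S K) * (t3 : S K) = 0 → a = 0 ∧ b = 0 := by
    intro a b e1 e2 e3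
    apply hy
    apply Subtype.ext
    apply Prod.ext
    · apply Subtype.ext
      rw [← smul_eq_C_mul, ← smul_eq_C_mul] at e1
      exact e1
    · apply Prod.ext
      · apply Subtype.ext
        rw [← smul_eq_C_mul, ← smul_eq_C_mul] at e2
        exact e2
      · apply Subtype.ext
        rw [← smul_eq_C_mul, ← smul_eq_C_mul] at e3
        exact e3
  -- rank two over `S`
  have hrank : ∀ u v : S K, (u : S K) * s1 + v * t1 = 0 → u * s2 + v * t2 = 0 →
      u * s3 + v * t3 = 0 → u = 0 ∧ v = 0 := by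
    intro u v e1 e2 e3
    by_contra hne
    have hm : ∀ {a b c d : S K}, u * a + v * b = 0 → u * c + v * d = 0 → a * d = c * b := by
      intro a b c d ea ec
      have f1' : u * (a * d - c * b) = 0 := by linear_combination d * ea - b * ec
      have f2' : v * (a * d - c * b) = 0 := by linear_combination a * ec - c * ea
      by_cases hu : u = 0
      · have hv : v ≠ 0 := fun hv => hne ⟨hu, hv⟩
        exact sub_eq_zero.1 ((mul_eq_zero.1 f2').resolve_left hv)
      · exact sub_eq_zero.1 ((mul_eq_zero.1 f1').resolve_left hu)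
    have m12 := hm e1 e2
    have m13 := hm e1 e3
    have m23 := hm e2 e3
    by_cases h10 : (s1 : S K) = 0
    · by_cases h20 : (s2 : S K) = 0
      · by_cases h30 : (s3 : S K) = 0
        · have := hind 1 0 (by simp [h10]) (by simp [h20]) (by simp [h30])
          exact one_ne_zero this.1
        · exact rank_one_false s3.2 s1.2 s2.2 t3.2 h30 m13.symm
            m23.symm (by linear_combination hx) hi.rot.rot
            (fun a b x1 x2 x3 => hind a b x2 x3 x1)
      · exact rank_one_false s2.2 s3.2 s1.2 t2.2 h20 m23 m12.symm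
          (by linear_combination hx) hi.rot
          (fun a b x1 x2 x3 => hind a b x3 x1 x2)
    · exact rank_one_false s1.2 s2.2 s3.2 t1.2 h10 m12 m13 (by linear_combination hx) hi hind
  -- the big map is onto degree 7
  have hrange : H K 7 ≤ LinearMap.range (Phi Q1 Q2 Q3 5) := by
    have hFid : Fid f1 f2 f3 ≤ Fid Q1 Q2 Q3 := by
      refine Ideal.span_le.2 ?_
      rintro p (rfl | rfl | rfl)
      · exact hf1
      · exact hf2
      · exact hf3
    intro q hq
    obtain ⟨a, b, c, e⟩ := mem_Fid.1 (hFid (h.H7_mem hq))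
    refine ⟨(⟨_, hc_mem a 5⟩, ⟨_, hc_mem b 5⟩, ⟨_, hc_mem c 5⟩), ?_⟩
    rw [Phi_apply, ← hc_of_mem hq, e, map_add, map_add]
    have e1 := hc_mul h1 a 5
    have e2 := hc_mul h2 b 5
    have e3 := hc_mul h3 c 5
    simp only [Nat.reduceAdd] at e1 e2 e3
    rw [e1, e2, e3]
  -- the syzygies
  let θ : (H K 4 × H K 4) →ₗ[K] (H K 5 × H K 5 × H K 5) :=
    LinearMap.prod
      ((mulHH s1 s1.2 4 5 (by omega)).comp (LinearMap.fst K _ _) +
        (mulHH t1 t1.2 4 5 (by omega)).comp (LinearMap.snd K _ _))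
      (LinearMap.prod
        ((mulHH s2 s2.2 4 5 (by omega)).comp (LinearMap.fst K _ _) +
          (mulHH t2 t2.2 4 5 (by omega)).comp (LinearMap.snd K _ _))
        ((mulHH s3 s3.2 4 5 (by omega)).comp (LinearMap.fst K _ _) +
          (mulHH t3 t3.2 4 5 (by omega)).comp (LinearMap.snd K _ _)))
  have hθ : ∀ (u v : H K 4), ((θ (u, v)).1 : S K) = s1 * u + t1 * v ∧
      ((θ (u, v)).2.1 : S K) = s2 * u + t2 * v ∧ ((θ (u, v)).2.2 : S K) = s3 * u + t3 * v := by
    intro u v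
    exact ⟨rfl, rfl, rfl⟩
  have hθinj : Function.Injective θ := by
    rw [injective_iff_map_eq_zero]
    rintro ⟨u, v⟩ hz
    obtain ⟨e1, e2, e3⟩ := hθ u v
    rw [hz] at e1 e2 e3
    simp only [Prod.fst_zero, Prod.snd_zero, ZeroMemClass.coe_zero] at e1 e2 e3
    obtain ⟨hu, hv⟩ := hrank u v (by linear_combination -e1) (by linear_combination -e2)
      (by linear_combination -e3)
    exact Prod.ext (Subtype.ext hu) (Subtype.ext hv)
  have hθker : LinearMap.range θ ≤ LinearMap.ker (Phi Q1 Q2 Q3 5) := by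
    rintro _ ⟨⟨u, v⟩, rfl⟩
    rw [LinearMap.mem_ker]
    obtain ⟨e1, e2, e3⟩ := hθ u v
    have e4 : Phi Q1 Q2 Q3 5 (θ (u, v)) = Q1 * ((θ (u, v)).1 : S K) +
        Q2 * ((θ (u, v)).2.1 : S K) + Q3 * ((θ (u, v)).2.2 : S K) := Phi_apply _ _ _ _ _ _ _
    rw [e4, e1, e2, e3]
    linear_combination (u : S K) * hx + (v : S K) * hy'
  have hn := LinearMap.finrank_range_add_finrank_ker (Phi Q1 Q2 Q3 5)
  rw [finrank_triple] at hn
  have hr1 := Submodule.finrank_mono hrange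
  rw [finrank_H] at hr1
  have hr2 := Submodule.finrank_mono hθker
  rw [LinearMap.finrank_range_of_inj hθinj, Module.finrank_prod, finrank_H] at hr2
  simp only [Nat.reduceAdd] at hn hr1 hr2
  have e1 : Nat.choose 9 2 = 36 := rfl
  have e2 : Nat.choose 6 2 = 15 := rfl
  have e3 : Nat.choose 7 2 = 21 := rfl
  omega

/-- A basis with three elements. -/
theorem exists_basis3 {V : Submodule K (S K)} [FiniteDimensional K V] (hq : finrank K V = 3) :
    ∃ Q1 Q2 Q3 : S K, Q1 ∈ V ∧ Q2 ∈ V ∧ Q3 ∈ V ∧ Ind3 Q1 Q2 Q3 ∧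
      ∀ v ∈ V, ∃ a b c : K, v = a • Q1 + b • Q2 + c • Q3 := by
  let bs := Module.finBasisOfFinrankEq K V hq
  refine ⟨bs 0, bs 1, bs 2, (bs 0).2, (bs 1).2, (bs 2).2, ?_, ?_⟩
  · intro a b c e
    have hl := Fintype.linearIndependent_iff.1 bs.linearIndependent ![a, b, c] (by
      rw [Fin.sum_univ_three]
      apply Subtype.ext
      simpa using e)
    exact ⟨hl 0, hl 1, hl 2⟩
  · intro v hv
    refine ⟨bs.repr ⟨v, hv⟩ 0, bs.repr ⟨v, hv⟩ 1, bs.repr ⟨v, hv⟩ 2, ?_⟩
    have := bs.sum_repr ⟨v, hv⟩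
    rw [Fin.sum_univ_three] at this
    have h2 := congrArg Subtype.val this
    simpa using h2.symm

/-- A basis with two elements. -/
theorem exists_basis2 {V : Submodule K (S K)} [FiniteDimensional K V] (hq : finrank K V = 2) :
    ∃ Q1 Q2 : S K, Q1 ∈ V ∧ Q2 ∈ V ∧ Ind2 Q1 Q2 := by
  let bs := Module.finBasisOfFinrankEq K V hq
  refine ⟨bs 0, bs 1, (bs 0).2, (bs 1).2, ?_⟩
  intro a b e
  have hl := Fintype.linearIndependent_iff.1 bs.linearIndependent ![a, b] (by
    rw [Fin.sum_univ_two]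
    apply Subtype.ext
    simpa using e)
  exact ⟨hl 0, hl 1⟩

theorem Phi_range_le_M {V : Submodule K (S K)} {Q1 Q2 Q3 : S K} (h1 : Q1 ∈ V) (h2 : Q2 ∈ V)
    (h3 : Q3 ∈ V) : LinearMap.range (Phi Q1 Q2 Q3 1) ≤ M V := by
  rintro _ ⟨⟨a, b, c⟩, rfl⟩
  rw [Phi_apply, mul_comm Q1, mul_comm Q2, mul_comm Q3]
  exact add_mem (add_mem (mul_mem_M a.2 h1) (mul_mem_M b.2 h2)) (mul_mem_M c.2 h3)

/-- **q = 3**. -/
theorem Cubics.growth2_q3 (h : Cubics f1 f2 f3) {V : Submodule K (S K)} (hV : V ≤ H K 2)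
    (hq : finrank K V = 3) : 8 ≤ finrank K ↥(M V ⊔ F f1 f2 f3 3) := by
  have hM := M_le_H hV
  have hle : M V ⊔ F f1 f2 f3 3 ≤ H K 3 := sup_le hM (F_le_H _ _ _ _)
  have : FiniteDimensional K ↥(M V ⊔ F f1 f2 f3 3) := fd_of_le hle
  have : FiniteDimensional K ↥(M V) := fd_of_le hM
  have : FiniteDimensional K V := fd_of_le hV
  obtain ⟨Q1, Q2, Q3, h1, h2, h3, hi, hspan⟩ := exists_basis3 hq
  have hQ1 := hV h1
  have hQ2 := hV h2
  have hQ3 := hV h3
  have hMle : M V ≤ LinearMap.range (Phi Q1 Q2 Q3 1) := by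
    refine iSup_le fun j => ?_
    rintro _ ⟨v, hv, rfl⟩
    obtain ⟨a, b, c, rfl⟩ := hspan v hv
    have hXj := X_mem_H1 (K := K) j
    refine ⟨(a • ⟨X j, hXj⟩, b • ⟨X j, hXj⟩, c • ⟨X j, hXj⟩), ?_⟩
    rw [Phi_apply]
    simp only [SetLike.val_smul, LinearMap.mulLeft_apply, smul_eq_C_mul]
    ring
  have hR : LinearMap.range (Phi Q1 Q2 Q3 1) = M V := le_antisymm (Phi_range_le_M h1 h2 h3) hMle
  have hT1 : finrank K (M V) ≤ finrank K ↥(M V ⊔ F f1 f2 f3 3) :=
    Submodule.finrank_mono le_sup_left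
  by_cases h8 : 8 ≤ finrank K (M V)
  · omega
  have hn := LinearMap.finrank_range_add_finrank_ker (Phi Q1 Q2 Q3 1)
  rw [finrank_triple, hR] at hn
  have hn9 : 3 * (1 + 2).choose 2 = 9 := rfl
  by_cases h7 : finrank K (M V) = 7
  · by_contra hlt
    push Not at hlt
    have hr : M V = M V ⊔ F f1 f2 f3 3 :=
      Submodule.eq_of_le_of_finrank_le le_sup_left (by omega)
    have hmem : ∀ f ∈ F f1 f2 f3 3, f ∈ Fid Q1 Q2 Q3 := by
      intro f hf
      have : f ∈ M V := by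
        rw [hr]
        exact Submodule.mem_sup_right hf
      rw [← hR] at this
      obtain ⟨⟨a, b, c⟩, rfl⟩ := this
      rw [Phi_apply]
      exact mem_Fid.2 ⟨a, b, c, rfl⟩
    obtain ⟨m1, m2, m3⟩ := F3_mem h hmem
    exact h.obstruct3 hQ1 hQ2 hQ3 hi (by omega) m1 m2 m3
  -- small case
  have hsmall : ∀ {P1 P2 P3 : S K}, P1 ∈ V → P2 ∈ V → P3 ∈ V →
      finrank K (LinearMap.range (Phi P1 P2 P3 1)) ≤ 6 := by
    intro P1 P2 P3 p1 p2 p3
    have := Submodule.finrank_mono (Phi_range_le_M p1 p2 p3)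
    omega
  have s12 : LS Q1 Q2 := LS_of_small hQ1 hQ2 hi (hsmall h1 h2 h3)
  have s13 : LS Q1 Q3 := LS_of_small hQ1 hQ3 hi.swap23 (hsmall h1 h3 h2)
  have s23 : LS Q2 Q3 := LS_of_small hQ2 hQ3 hi.rot (hsmall h2 h3 h1)
  have i4 : Ind3 (Q1 + Q2) Q3 Q1 := by
    intro a b c e
    obtain ⟨x, y, z⟩ := hi (a + c) a b (by rw [← e]; simp only [smul_add, add_smul]; ring)
    refine ⟨y, z, ?_⟩
    rw [y, zero_add] at x
    exact x
  have s123 : LS (Q1 + Q2) Q3 := LS_of_small (add_mem hQ1 hQ2) hQ3 i4 (hsmall (add_mem h1 h2) h3 h1)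
  obtain ⟨l, l1, l2, l3, hl, hl1, hl2, hl3, hl0, e1, e2, e3⟩ :=
    common_factor hQ1 hQ2 hQ3 hi s12 s13 s23 s123
  -- the `l_i` span the linear forms
  have il : LinearIndependent K ![l1, l2, l3] := by
    refine Fintype.linearIndependent_iff.2 fun g hg => ?_
    rw [Fin.sum_univ_three] at hg
    simp only [Matrix.cons_val_zero, Matrix.cons_val_one, Matrix.cons_val] at hg
    have : g 0 • Q1 + g 1 • Q2 + g 2 • Q3 = 0 := by
      rw [e1, e2, e3]
      have : l * (g 0 • l1 + g 1 • l2 + g 2 • l3) = 0 := by rw [hg]; simp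
      rw [← this, mul_add, mul_add, mul_smul_comm, mul_smul_comm, mul_smul_comm]
    obtain ⟨x, y, z⟩ := hi _ _ _ this
    intro i
    fin_cases i
    · exact x
    · exact y
    · exact z
  have hspanH : Submodule.span K (Set.range ![l1, l2, l3]) = H K 1 := by
    refine Submodule.eq_of_le_of_finrank_le ?_ ?_
    · refine Submodule.span_le.2 ?_
      rintro _ ⟨i, rfl⟩
      fin_cases i
      · exact hl1
      · exact hl2
      · exact hl3
    · rw [finrank_span_eq_card il, finrank_H]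
      rfl
  have hlV : ∀ u ∈ H K 1, l * u ∈ V := by
    intro u hu
    rw [← hspanH] at hu
    obtain ⟨g, rfl⟩ := (Submodule.mem_span_range_iff_exists_fun K).1 hu
    rw [Fin.sum_univ_three]
    simp only [Matrix.cons_val_zero, Matrix.cons_val_one, Matrix.cons_val]
    have : l * (g 0 • l1 + g 1 • l2 + g 2 • l3) = g 0 • Q1 + g 1 • Q2 + g 2 • Q3 := by
      rw [e1, e2, e3, mul_add, mul_add, mul_smul_comm, mul_smul_comm, mul_smul_comm]
    rw [this]
    exact add_mem (add_mem (Submodule.smul_mem _ _ h1) (Submodule.smul_mem _ _ h2))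
      (Submodule.smul_mem _ _ h3)
  -- `l H2 ≤ M V`
  have hlM : ∀ w ∈ H K 2, l * w ∈ M V := by
    intro w hw
    have hw' : w ∈ M (H K 1) := by
      rw [M_H]
      exact hw
    have hle2 : M (H K 1) ≤ (M V).comap (LinearMap.mulLeft K l) := by
      refine iSup_le fun j => ?_
      rintro _ ⟨u', hu', rfl⟩
      show l * (X j * u') ∈ M V
      have e : l * (X j * u') = X j * (l * u') := by ring
      rw [e]
      exact mem_M_X (hlV u' hu') j
    exact hle2 hw'
  have hM6 : 6 ≤ finrank K (M V) := by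
    let μ : H K 2 →ₗ[K] M V := LinearMap.codRestrict (M V) (mulH l 2) (fun w => hlM w w.2)
    have hμ : Function.Injective μ := by
      rw [injective_iff_map_eq_zero]
      intro w hw
      have : l * (w : S K) = 0 := congrArg Subtype.val hw
      exact Subtype.ext ((mul_eq_zero.1 this).resolve_left hl0)
    have := LinearMap.finrank_le_finrank_of_injective hμ
    rw [finrank_H] at this
    exact this
  have hdiv : ∀ a ∈ M V, l ∣ a := by
    intro a ha
    rw [← hR] at ha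
    obtain ⟨⟨x, y, z⟩, rfl⟩ := ha
    rw [Phi_apply, e1, e2, e3]
    exact ⟨l1 * x + l2 * y + l3 * z, by ring⟩
  have := h.finrank_sup_F3 hl hl0 (Or.inl rfl) hdiv hM
  omega

theorem gT2_ge5 {q : ℕ} (hq : 5 ≤ q) : gT 2 q = 7 := by
  obtain ⟨n, rfl⟩ : ∃ n, q = n + 5 := ⟨q - 5, by omega⟩
  simp [gT]

/-- **Growth from degree 2**. -/
theorem Cubics.growth2 (h : Cubics f1 f2 f3) {V : Submodule K (S K)} (hV : V ≤ H K 2) :
    gT 2 (finrank K V) + 3 ≤ finrank K ↥(M V ⊔ F f1 f2 f3 3) := by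
  have hle : M V ⊔ F f1 f2 f3 3 ≤ H K 3 := sup_le (M_le_H hV) (F_le_H _ _ _ _)
  have : FiniteDimensional K ↥(M V ⊔ F f1 f2 f3 3) := fd_of_le hle
  have : FiniteDimensional K V := fd_of_le hV
  have hF3 : finrank K (F f1 f2 f3 3) = 3 := h.finrank_F (by omega)
  have h0 : 3 ≤ finrank K ↥(M V ⊔ F f1 f2 f3 3) := by
    have := Submodule.finrank_mono (le_sup_right : F f1 f2 f3 3 ≤ M V ⊔ F f1 f2 f3 3)
    omega
  by_cases h5 : 5 ≤ finrank K V
  · rw [gT2_ge5 h5, h.growth2_q5 hV h5, finrank_H]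
    exact le_rfl
  have hc : finrank K V = 0 ∨ finrank K V = 1 ∨ finrank K V = 2 ∨ finrank K V = 3 ∨
      finrank K V = 4 := by omega
  rcases hc with e | e | e | e | e
  · rw [e]
    simpa [gT] using h0
  · rw [e]
    have hpos : 0 < finrank K V := by omega
    obtain ⟨x, hx⟩ : ∃ x : V, x ≠ 0 := (Module.finrank_pos_iff_exists_ne_zero).1 hpos
    have := h.growth2_q1 hV x.2 (fun hz => hx (Subtype.ext hz))
    simpa [gT] using this
  · rw [e]
    obtain ⟨Q1, Q2, h1, h2, hi⟩ := exists_basis2 e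
    have := h.growth2_q2 hV h1 h2 hi
    simpa [gT] using this
  · rw [e]
    have := h.growth2_q3 hV e
    simpa [gT] using this
  · rw [e]
    have := h.growth2_q4 hV e
    simpa [gT] using this

/-- **Growth from degree 0**. -/
theorem growth0 {V : Submodule K (S K)} (hV : V ≤ H K 0) : gT 0 (finrank K V) ≤ finrank K (M V) := by
  have : FiniteDimensional K ↥(M V) := fd_of_le (M_le_H hV)
  have : FiniteDimensional K V := fd_of_le hV
  rcases Nat.eq_zero_or_pos (finrank K V) with e | e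
  · rw [e]
    simp [gT]
  obtain ⟨x, hx⟩ : ∃ x : V, x ≠ 0 := (Module.finrank_pos_iff_exists_ne_zero).1 e
  obtain ⟨n, hn⟩ : ∃ n, finrank K V = n + 1 := ⟨finrank K V - 1, by omega⟩
  rw [hn]
  obtain ⟨t, ht⟩ := H0_eq (hV x.2)
  have ht0 : t ≠ 0 := by
    rintro rfl
    apply hx
    apply Subtype.ext
    rw [ht]
    simp
  have hle : H K 1 ≤ M V := by
    intro l hl
    have h1 := mul_mem_M hl x.2
    have h2 : l = t⁻¹ • (l * (x : S K)) := by
      rw [ht, smul_eq_C_mul]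
      have : (C t⁻¹ * C t : S K) = 1 := by
        rw [← C_mul, inv_mul_cancel₀ ht0, C_1]
      linear_combination (-l) * this
    rw [h2]
    exact Submodule.smul_mem _ _ h1
  have h3 := Submodule.finrank_mono hle
  rw [finrank_H] at h3
  simpa [gT] using h3

/-- **Growth from degree 1**. -/
theorem growth1 {V : Submodule K (S K)} (hV : V ≤ H K 1) : gT 1 (finrank K V) ≤ finrank K (M V) := by
  have : FiniteDimensional K ↥(M V) := fd_of_le (M_le_H hV)
  have : FiniteDimensional K V := fd_of_le hV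
  have hb : finrank K V ≤ 3 := by
    have := Submodule.finrank_mono hV
    rw [finrank_H] at this
    exact this
  have hc : finrank K V = 0 ∨ finrank K V = 1 ∨ finrank K V = 2 ∨ finrank K V = 3 := by omega
  rcases hc with e | e | e | e
  · rw [e]
    simp [gT]
  · rw [e]
    have hpos : 0 < finrank K V := by omega
    obtain ⟨x, hx⟩ : ∃ x : V, x ≠ 0 := (Module.finrank_pos_iff_exists_ne_zero).1 hpos
    have hx0 : (x : S K) ≠ 0 := fun hz => hx (Subtype.ext hz)
    have hle : LinearMap.range (mulH (x : S K) 1) ≤ M V := by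
      rintro _ ⟨u, rfl⟩
      rw [mulH_apply, mul_comm]
      exact mul_mem_M u.2 x.2
    have h3 := Submodule.finrank_mono hle
    rw [LinearMap.finrank_range_of_inj, finrank_H] at h3
    · simpa [gT] using h3
    · rw [injective_iff_map_eq_zero]
      intro u hu
      exact Subtype.ext ((mul_eq_zero.1 hu).resolve_left hx0)
  · rw [e]
    obtain ⟨Q1, Q2, h1, h2, hi⟩ := exists_basis2 e
    have h3 := finrank_range_Pair_linear (hV h1) (hV h2) hi
    have h4 := Submodule.finrank_mono (Pair_range_le_M h1 h2)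
    simp only [gT]
    omega
  · rw [e]
    have hVe : V = H K 1 := by
      refine Submodule.eq_of_le_of_finrank_le hV ?_
      rw [e, finrank_H]
      rfl
    rw [hVe, M_H, finrank_H]
    exact le_rfl

/-- The base cases together. -/
theorem Cubics.base (h : Cubics f1 f2 f3) :
    ∀ e ≤ 2, ∀ W : Submodule K (S K), F f1 f2 f3 e ≤ W → W ≤ H K e →
      gT e (finrank K W - fdim e) + fdim (e + 1) ≤ finrank K ↥(M W ⊔ F f1 f2 f3 (e + 1)) := by
  intro e he W _ hW
  have hc : e = 0 ∨ e = 1 ∨ e = 2 := by omega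
  rcases hc with rfl | rfl | rfl
  · rw [h.F_bot (by omega), sup_bot_eq]
    simpa [fdim] using growth0 hW
  · rw [h.F_bot (by omega), sup_bot_eq]
    simpa [fdim] using growth1 hW
  · simpa [fdim] using h.growth2 hW

/-- **The growth theorem**. -/
theorem Cubics.growth (h : Cubics f1 f2 f3) {d : ℕ} (hd : d ≤ 5) {V : Submodule K (S K)}
    (hFV : F f1 f2 f3 d ≤ V) (hV : V ≤ H K d) :
    gT d (finrank K V - fdim d) + fdim (d + 1) ≤ finrank K ↥(M V ⊔ F f1 f2 f3 (d + 1)) :=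
  h.growth_of_base h.base hd hFV hV

end Vale.Agent.P200
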