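import Mathlib

/-!
# P200: basic facts on `K[x,y,z]`

Graded pieces `H K d`, their dimensions, homogeneous components of products,
primality of linear forms, the regular-sequence predicate and the Koszul lemma.
-/

open MvPolynomial Module

namespace Vale.Agent.P200

variable {K : Type*} [Field K]

/-- The polynomial ring `K[x_0,x_1,x_2]`. -/
abbrev S (K : Type*) [Field K] := MvPolynomial (Fin 3) K

/-- The degree `d` forms. -/
abbrev H (K : Type*) [Field K] (d : ℕ) : Submodule K (S K) := homogeneousSubmodule (Fin 3) K d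

instance instFiniteH (d : ℕ) : FiniteDimensional K (homogeneousSubmodule (Fin 3) K d) :=
  Module.Finite.iff_fg.2 (homogeneousSubmodule_fg (Fin 3) K d)

theorem fd_of_le {V : Submodule K (S K)} {d : ℕ} (h : V ≤ H K d) : FiniteDimensional K V :=
  Submodule.finiteDimensional_of_le h

/-- dimension of the degree `d` forms -/
theorem finrank_H (d : ℕ) : finrank K (H K d) = (d+2).choose 2 := by
  classical
  have h1 : (H K d : Submodule K (S K)) =
      AddMonoidAlgebra.supported K K {e : Fin 3 →₀ ℕ | e.degree = d} :=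
    homogeneousSubmodule_eq_finsupp_supported _ _ d
  rw [h1, (AddMonoidAlgebra.supportedEquivFinsupp (R := K) (S := K)
    {e : Fin 3 →₀ ℕ | e.degree = d}).finrank_eq]
  have hs : {e : Fin 3 →₀ ℕ | e.degree = d} =
      ↑((Finset.univ : Finset (Fin 3)).finsuppAntidiag d) := by
    ext e
    simp [Finset.mem_finsuppAntidiag, Finsupp.degree_eq_sum]
  rw [hs]
  have := Module.finrank_finsupp_self (R := K)
    (ι := ↥((Finset.univ : Finset (Fin 3)).finsuppAntidiag d))
  simp only [Finset.coe_sort_coe]
  rw [this, Fintype.card_coe, Finset.card_finsuppAntidiag_nat_eq_choose]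
  simp only [Finset.card_univ, Fintype.card_fin]
  have : 3 + d - 1 = d + 2 := by omega
  rw [this, Nat.choose_symm_add]

/-! ### homogeneous components of products -/

theorem hc_mul_of_mem {f g : S K} {a m n : ℕ} (hf : f ∈ H K a) (hg : g ∈ H K m) :
    homogeneousComponent (n + a) (f * g) = f * homogeneousComponent n g := by
  have h : (f * g) ∈ H K (a + m) := IsHomogeneous.mul hf hg
  rw [homogeneousComponent_of_mem h, homogeneousComponent_of_mem hg]
  by_cases hnm : n = m
  · subst hnm
    simp [add_comm]
  · have : n + a ≠ a + m := by omega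
    simp [this, hnm]

/-- Homogeneous components of a product with a form. -/
theorem hc_mul {f : S K} {a : ℕ} (hf : f ∈ H K a) (g : S K) (n : ℕ) :
    homogeneousComponent (n + a) (f * g) = f * homogeneousComponent n g := by
  classical
  conv_lhs => rw [← sum_homogeneousComponent g]
  conv_rhs => rw [← sum_homogeneousComponent g]
  rw [Finset.mul_sum, map_sum, map_sum, Finset.mul_sum]
  refine Finset.sum_congr rfl fun i _ => ?_
  exact hc_mul_of_mem hf (homogeneousComponent_isHomogeneous i g)

theorem hc_mul_lt {f : S K} {a k : ℕ} (hf : f ∈ H K a) (g : S K) (hk : k < a) :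
    homogeneousComponent k (f * g) = 0 := by
  classical
  conv_lhs => rw [← sum_homogeneousComponent g]
  rw [Finset.mul_sum, map_sum]
  refine Finset.sum_eq_zero fun i _ => ?_
  have h : (f * homogeneousComponent i g) ∈ H K (a + i) :=
    IsHomogeneous.mul hf (homogeneousComponent_isHomogeneous i g)
  rw [homogeneousComponent_of_mem h]
  have : k ≠ a + i := by omega
  simp [this]

theorem hc_of_mem {p : S K} {d : ℕ} (hp : p ∈ H K d) : homogeneousComponent d p = p := by
  rw [homogeneousComponent_of_mem hp]; simp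

theorem hc_mem (g : S K) (n : ℕ) : homogeneousComponent n g ∈ H K n :=
  homogeneousComponent_isHomogeneous n g

theorem mul_mem_H {f g : S K} {a b c : ℕ} (hf : f ∈ H K a) (hg : g ∈ H K b) (h : a + b = c) :
    f * g ∈ H K c := by
  subst h
  exact IsHomogeneous.mul hf hg

theorem X_mem_H1 (j : Fin 3) : (X j : S K) ∈ H K 1 := isHomogeneous_X K j

theorem H0_eq {p : S K} (hp : p ∈ H K 0) : ∃ t : K, p = C t := by
  have : p.totalDegree = 0 := by
    have h2 : p.IsHomogeneous 0 := hp
    by_cases h0 : p = 0
    · simp [h0]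
    · exact h2.totalDegree h0
  exact ⟨_, totalDegree_eq_zero_iff_eq_C.1 this⟩

theorem C_mem_H0 (t : K) : (C t : S K) ∈ H K 0 := isHomogeneous_C (Fin 3) t

/-! ### linear forms -/

theorem irreducible_of_H1 {l : S K} (hl : l ∈ H K 1) (h0 : l ≠ 0) : Irreducible l := by
  have hd : l.totalDegree = 1 := IsHomogeneous.totalDegree hl h0
  refine ⟨?_, ?_⟩
  · intro hu
    have := (MvPolynomial.isUnit_iff_eq_C_of_isReduced.1 hu)
    obtain ⟨r, -, hr⟩ := this
    rw [hr] at hd
    simp at hd
  · intro a b hab
    have ha0 : a ≠ 0 := by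
      rintro rfl
      simp at hab
      exact h0 hab
    have hb0 : b ≠ 0 := by
      rintro rfl
      simp at hab
      exact h0 hab
    have hdd : a.totalDegree + b.totalDegree = 1 := by
      rw [← hd, hab, totalDegree_mul_of_isDomain ha0 hb0]
    have : a.totalDegree = 0 ∨ b.totalDegree = 0 := by omega
    rcases this with h | h
    · left
      obtain ⟨t, ht⟩ : ∃ t : K, a = C t := ⟨_, totalDegree_eq_zero_iff_eq_C.1 h⟩
      rw [ht] at ha0 ⊢
      have : t ≠ 0 := by
        rintro rfl
        simp at ha0
      exact (isUnit_iff_ne_zero.2 this).map C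
    · right
      obtain ⟨t, ht⟩ : ∃ t : K, b = C t := ⟨_, totalDegree_eq_zero_iff_eq_C.1 h⟩
      rw [ht] at hb0 ⊢
      have : t ≠ 0 := by
        rintro rfl
        simp at hb0
      exact (isUnit_iff_ne_zero.2 this).map C

theorem prime_of_H1 {l : S K} (hl : l ∈ H K 1) (h0 : l ≠ 0) : Prime l :=
  (irreducible_of_H1 hl h0).prime

/-- if a linear form divides a form of degree `n+1`, the quotient may be taken of degree `n` -/
theorem dvd_factor {l p q : S K} {n : ℕ} (hl : l ∈ H K 1) (hp : p ∈ H K (n+1)) (h : p = l * q) :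
    p = l * homogeneousComponent n q := by
  rw [← hc_mul hl]
  rw [← h]
  exact (hc_of_mem hp).symm

/-- If a linear form divides another one they are proportional. -/
theorem H1_dvd_H1 {a b q : S K} (ha : a ∈ H K 1) (hb : b ∈ H K 1) (h : b = a * q) :
    ∃ t : K, b = C t * a := by
  have h1 : b = a * homogeneousComponent 0 q := dvd_factor ha hb h
  obtain ⟨t, ht⟩ := H0_eq (hc_mem q 0)
  refine ⟨t, ?_⟩
  rw [h1, ht, mul_comm]

/-- `X` are independent -/
theorem X_indep {a b c : K} (h : C a * X 0 + C b * X 1 + C c * X 2 = (0 : S K)) :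
    a = 0 ∧ b = 0 ∧ c = 0 := by
  have h0 := congrArg (coeff (Finsupp.single (0 : Fin 3) 1)) h
  have h1 := congrArg (coeff (Finsupp.single (1 : Fin 3) 1)) h
  have h2 := congrArg (coeff (Finsupp.single (2 : Fin 3) 1)) h
  simp [coeff_C_mul, coeff_X, Finsupp.single_left_inj] at h0 h1 h2
  exact ⟨h0, h1, h2⟩

/-- Every linear form is a combination of the variables. -/
theorem H1_repr {l : S K} (hl : l ∈ H K 1) : ∃ a b c : K, l = C a * X 0 + C b * X 1 + C c * X 2 := by
  have h : l ∈ Submodule.span K (Set.range (X : Fin 3 → S K)) := by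
    rw [← homogeneousSubmodule_one_eq_span_X]
    exact hl
  obtain ⟨f, hf⟩ := (Submodule.mem_span_range_iff_exists_fun K).1 h
  refine ⟨f 0, f 1, f 2, ?_⟩
  rw [← hf, Fin.sum_univ_three]
  simp [C_mul']

end Vale.Agent.P200
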