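import Vale.Agent.Lib.P200.Koszul

/-!
# P200: interface for the proof of EGH for three cubics

Definitions shared by the files of the proof.
-/

open MvPolynomial Module

namespace Vale.Agent.P200

variable {K : Type*} [Field K]

/-- `f1, f2, f3` are cubic forms and a regular sequence. -/
structure Cubics (f1 f2 f3 : S K) : Prop where
  reg : RegSeq f1 f2 f3
  h1 : f1 ∈ H K 3
  h2 : f2 ∈ H K 3
  h3 : f3 ∈ H K 3

/-- The degree `d` part of `(f1, f2, f3)`. -/
noncomputable def F (f1 f2 f3 : S K) (d : ℕ) : Submodule K (S K) :=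
  (Fid f1 f2 f3).restrictScalars K ⊓ H K d

/-- `M V` is `x V + y V + z V`. -/
noncomputable def M (V : Submodule K (S K)) : Submodule K (S K) :=
  ⨆ j : Fin 3, V.map (LinearMap.mulLeft K (X j : S K))

/-- Dimension of the degree `d` part of `(f1, f2, f3)` for `d ≤ 7`. -/
def fdim : ℕ → ℕ
  | 3 => 3
  | 4 => 9
  | 5 => 18
  | 6 => 27
  | 7 => 36
  | _ => 0

/-- The growth table: `gT d q` is the number of monomials outside `(x³, y³, z³)`
in degree `d + 1` divisible by one of the `q` lex-first monomials of degree `d` outside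
`(x³, y³, z³)`. -/
def gT : ℕ → ℕ → ℕ
  | 0, 0 => 0
  | 0, _ => 3
  | 1, 0 => 0
  | 1, 1 => 3
  | 1, 2 => 5
  | 1, _ => 6
  | 2, 0 => 0
  | 2, 1 => 2
  | 2, 2 => 4
  | 2, 3 => 5
  | 2, 4 => 6
  | 2, _ => 7
  | 3, 0 => 0
  | 3, 1 => 2
  | 3, 2 => 3
  | 3, 3 => 4
  | 3, 4 => 5
  | 3, 5 => 5
  | 3, _ => 6
  | 4, 0 => 0
  | 4, 1 => 1
  | 4, 2 => 2
  | 4, 3 => 2
  | 4, _ => 3
  | 5, 0 => 0
  | 5, _ => 1
  | _, _ => 0

theorem mem_M_X {V : Submodule K (S K)} {v : S K} (hv : v ∈ V) (j : Fin 3) : X j * v ∈ M V := by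
  refine Submodule.mem_iSup_of_mem j ?_
  exact Submodule.mem_map.2 ⟨v, hv, by simp⟩

/-- `M` is monotone. -/
theorem M_mono {V W : Submodule K (S K)} (h : V ≤ W) : M V ≤ M W :=
  iSup_mono fun _ => Submodule.map_mono h

/-- Any linear form times an element of `V` lies in `M V`. -/
theorem mul_mem_M {V : Submodule K (S K)} {a v : S K} (ha : a ∈ H K 1) (hv : v ∈ V) :
    a * v ∈ M V := by
  obtain ⟨r, s, t, rfl⟩ := H1_repr ha
  have e : (C r * X 0 + C s * X 1 + C t * X 2) * v =
      r • (X 0 * v) + s • (X 1 * v) + t • (X 2 * v) := by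
    simp only [smul_eq_C_mul]; ring
  rw [e]
  exact add_mem (add_mem (Submodule.smul_mem _ _ (mem_M_X hv 0))
    (Submodule.smul_mem _ _ (mem_M_X hv 1))) (Submodule.smul_mem _ _ (mem_M_X hv 2))

/-- `M V` consists of forms of degree `d+1` if `V` consists of forms of degree `d`. -/
theorem M_le_H {V : Submodule K (S K)} {d : ℕ} (h : V ≤ H K d) : M V ≤ H K (d + 1) := by
  refine iSup_le fun j => ?_
  rintro _ ⟨v, hv, rfl⟩
  exact mul_mem_H (X_mem_H1 j) (h hv) (by omega)

/-- `M` of the degree `n` forms is everything in degree `n+1`. -/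
theorem M_H (n : ℕ) : M (H K n) = H K (n + 1) := by
  refine le_antisymm (M_le_H le_rfl) ?_
  classical
  intro p hp
  have hmono : ∀ m : Fin 3 →₀ ℕ, ∀ c : K, m.degree = n + 1 → monomial m c ∈ M (H K n) := by
    intro m c hm
    obtain ⟨j, hj⟩ : ∃ j, m j ≠ 0 := by
      by_contra hh
      push Not at hh
      have : m = 0 := Finsupp.ext hh
      rw [this] at hm
      simp at hm
    have hle : Finsupp.single j 1 ≤ m := by
      rw [Finsupp.single_le_iff]
      exact Nat.one_le_iff_ne_zero.2 hj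
    have hdeg : (m - Finsupp.single j 1).degree = n := by
      have h1 := map_add (Finsupp.degree (R := ℕ)) (m - Finsupp.single j 1) (Finsupp.single j 1)
      rw [tsub_add_cancel_of_le hle, hm] at h1
      simp at h1
      omega
    have e : monomial m c = (X j : S K) * monomial (m - Finsupp.single j 1) c := by
      rw [X, monomial_mul, add_tsub_cancel_of_le hle, one_mul]
    rw [e]
    refine mem_M_X ?_ j
    exact isHomogeneous_monomial _ (by simpa [Finsupp.degree_eq_sum, Finsupp.sum] using hdeg)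
  rw [p.as_sum]
  refine Submodule.sum_mem _ fun m hm => ?_
  refine hmono m _ ?_
  have hh := hp (MvPolynomial.mem_support_iff.1 hm)
  simpa [Finsupp.degree_eq_sum, Finsupp.weight_apply, Finsupp.sum_fintype] using hh

/-- `V` of degree `d` in ideal `I` gives `M V ≤ I` -/
theorem M_le_ideal {I : Ideal (S K)} {V : Submodule K (S K)} (h : V ≤ I.restrictScalars K) :
    M V ≤ I.restrictScalars K := by
  refine iSup_le fun j => ?_
  rintro _ ⟨v, hv, rfl⟩
  exact I.mul_mem_left _ (h hv)

end Vale.Agent.P200
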