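import Vale.Agent.Lib.P200.Defs

/-!
# P200: dimensions of the graded pieces of `(f1, f2, f3)`
-/

open MvPolynomial Module

namespace Vale.Agent.P200

variable {K : Type*} [Field K]

/-- multiplication on graded pieces -/
noncomputable def mulH (p : S K) (n : ℕ) : H K n →ₗ[K] S K :=
  (LinearMap.mulLeft K p).comp (H K n).subtype

@[simp] theorem mulH_apply (p : S K) (n : ℕ) (a : H K n) : mulH p n a = p * a := rfl

/-- The map `(a,b,c) ↦ f1 a + f2 b + f3 c`. -/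
noncomputable def Phi (f1 f2 f3 : S K) (e : ℕ) : (H K e × H K e × H K e) →ₗ[K] S K :=
  (mulH f1 e).coprod ((mulH f2 e).coprod (mulH f3 e))

theorem Phi_apply (f1 f2 f3 : S K) (e : ℕ) (a b c : H K e) :
    Phi f1 f2 f3 e (a, b, c) = f1 * a + f2 * b + f3 * c := by
  simp [Phi, add_assoc]

theorem finrank_triple (e : ℕ) :
    finrank K (H K e × H K e × H K e) = 3 * (e + 2).choose 2 := by
  rw [Module.finrank_prod, Module.finrank_prod, finrank_H]
  ring

variable {f1 f2 f3 : S K}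

theorem Cubics.range_Phi (h : Cubics f1 f2 f3) (e : ℕ) :
    LinearMap.range (Phi f1 f2 f3 e) = F f1 f2 f3 (e + 3) := by
  ext p
  constructor
  · rintro ⟨⟨a, b, c⟩, rfl⟩
    rw [Phi_apply]
    refine ⟨mem_Fid.2 ⟨_, _, _, rfl⟩, ?_⟩
    exact add_mem (add_mem (mul_mem_H h.h1 a.2 (by omega)) (mul_mem_H h.h2 b.2 (by omega)))
      (mul_mem_H h.h3 c.2 (by omega))
  · rintro ⟨hp, hph⟩
    obtain ⟨a, b, c, ha, hb, hc, rfl⟩ := Fid_repr h.h1 h.h2 h.h3 hp hph
    exact ⟨(⟨a, ha⟩, ⟨b, hb⟩, ⟨c, hc⟩), Phi_apply _ _ _ _ _ _ _⟩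

theorem F_le_H (f1 f2 f3 : S K) (d : ℕ) : F f1 f2 f3 d ≤ H K d := inf_le_right

/-- In low degree the map is injective. -/
theorem Cubics.ker_Phi_low (h : Cubics f1 f2 f3) {e : ℕ} (he : e < 3) :
    LinearMap.ker (Phi f1 f2 f3 e) = ⊥ := by
  rw [LinearMap.ker_eq_bot']
  rintro ⟨a, b, c⟩ hz
  rw [Phi_apply] at hz
  obtain ⟨a', b', c', e1, e2, e3⟩ := koszul h.reg hz
  have ha : (a : S K) = 0 := by
    rw [← hc_of_mem a.2, e1, map_sub, map_neg, hc_mul_lt h.h2 _ he, hc_mul_lt h.h3 _ he]; simp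
  have hb : (b : S K) = 0 := by
    rw [← hc_of_mem b.2, e2, map_sub, hc_mul_lt h.h1 _ he, hc_mul_lt h.h3 _ he]; simp
  have hc : (c : S K) = 0 := by
    rw [← hc_of_mem c.2, e3, map_add, hc_mul_lt h.h1 _ he, hc_mul_lt h.h2 _ he]; simp
  exact Prod.ext (Subtype.ext ha) (Prod.ext (Subtype.ext hb) (Subtype.ext hc))

theorem Cubics.finrank_F_low (h : Cubics f1 f2 f3) {e : ℕ} (he : e < 3) :
    finrank K (F f1 f2 f3 (e + 3)) = 3 * (e + 2).choose 2 := by
  rw [← h.range_Phi, LinearMap.finrank_range_of_inj (LinearMap.ker_eq_bot.1 (h.ker_Phi_low he)),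
    finrank_triple]

/-- The Koszul map on graded pieces. -/
noncomputable def Kos (f1 f2 f3 : S K) (h : Cubics f1 f2 f3) (s : ℕ) :
    (H K s × H K s × H K s) →ₗ[K] (H K (s + 3) × H K (s + 3) × H K (s + 3)) :=
  let m : ∀ p : S K, p ∈ H K 3 → H K s →ₗ[K] H K (s + 3) := fun p hp =>
    LinearMap.codRestrict (H K (s + 3)) (mulH p s) (fun a => mul_mem_H hp a.2 (by omega))
  let π1 : (H K s × H K s × H K s) →ₗ[K] H K s := LinearMap.fst K _ _
  let π2 : (H K s × H K s × H K s) →ₗ[K] H K s := (LinearMap.fst K _ _).comp (LinearMap.snd K _ _)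
  let π3 : (H K s × H K s × H K s) →ₗ[K] H K s := (LinearMap.snd K _ _).comp (LinearMap.snd K _ _)
  -- `(a, b, c) ↦ (-f2 c - f3 a, f1 c - f3 b, f1 a + f2 b)`
  LinearMap.prod (-((m f2 h.h2).comp π3) - (m f3 h.h3).comp π1)
    (LinearMap.prod ((m f1 h.h1).comp π3 - (m f3 h.h3).comp π2)
      ((m f1 h.h1).comp π1 + (m f2 h.h2).comp π2))

theorem Kos_apply (h : Cubics f1 f2 f3) (s : ℕ) (a b c : H K s) :
    ((Kos f1 f2 f3 h s (a, b, c)).1 : S K) = -(f2 * c) - f3 * a ∧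
    ((Kos f1 f2 f3 h s (a, b, c)).2.1 : S K) = f1 * c - f3 * b ∧
    ((Kos f1 f2 f3 h s (a, b, c)).2.2 : S K) = f1 * a + f2 * b := by
  refine ⟨?_, ?_, ?_⟩ <;> simp [Kos, LinearMap.codRestrict]

theorem Cubics.Kos_inj (h : Cubics f1 f2 f3) {s : ℕ} (hs : s < 3) :
    Function.Injective (Kos f1 f2 f3 h s) := by
  rw [injective_iff_map_eq_zero]
  rintro ⟨a, b, c⟩ hz
  obtain ⟨e1, e2, e3⟩ := Kos_apply h s a b c
  rw [hz] at e1 e2 e3
  simp only [Prod.fst_zero, Prod.snd_zero, ZeroMemClass.coe_zero] at e1 e2 e3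
  obtain ⟨ha, hb, hc⟩ := koszul_inj h.reg h.h1 h.h2 hs a.2 e1.symm e2.symm e3.symm
  exact Prod.ext (Subtype.ext ha) (Prod.ext (Subtype.ext hb) (Subtype.ext hc))

theorem Cubics.ker_Phi_high (h : Cubics f1 f2 f3) (s : ℕ) :
    LinearMap.ker (Phi f1 f2 f3 (s + 3)) = LinearMap.range (Kos f1 f2 f3 h s) := by
  ext ⟨a, b, c⟩
  rw [LinearMap.mem_ker, Phi_apply]
  constructor
  · intro hz
    obtain ⟨a', b', c', ha', hb', hc', e1, e2, e3⟩ := koszul_h h.reg h.h1 h.h2 h.h3 a.2 b.2 c.2 hz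
    have hs : s + 3 - 3 = s := by omega
    rw [hs] at ha' hb' hc'
    refine ⟨(⟨a', ha'⟩, ⟨b', hb'⟩, ⟨c', hc'⟩), ?_⟩
    obtain ⟨k1, k2, k3⟩ := Kos_apply h s ⟨a', ha'⟩ ⟨b', hb'⟩ ⟨c', hc'⟩
    ext1
    · apply Subtype.ext
      rw [k1]; exact e1.symm
    · ext1
      · apply Subtype.ext
        rw [k2]; exact e2.symm
      · apply Subtype.ext
        rw [k3]; exact e3.symm
  · rintro ⟨⟨a', b', c'⟩, hk⟩
    obtain ⟨k1, k2, k3⟩ := Kos_apply h s a' b' c'
    rw [hk] at k1 k2 k3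
    simp only at k1 k2 k3
    rw [k1, k2, k3]
    ring

theorem Cubics.finrank_F_high (h : Cubics f1 f2 f3) {s : ℕ} (hs : s < 3) :
    finrank K (F f1 f2 f3 (s + 6)) + 3 * (s + 2).choose 2 = 3 * (s + 5).choose 2 := by
  have h1 := LinearMap.finrank_range_add_finrank_ker (Phi f1 f2 f3 (s + 3))
  rw [h.range_Phi, h.ker_Phi_high, LinearMap.finrank_range_of_inj (h.Kos_inj hs),
    finrank_triple, finrank_triple] at h1
  exact h1

theorem Cubics.F_bot (h : Cubics f1 f2 f3) {d : ℕ} (hd : d < 3) : F f1 f2 f3 d = ⊥ := by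
  rw [eq_bot_iff]
  rintro p ⟨hp, hph⟩
  exact Fid_low h.h1 h.h2 h.h3 hp hph hd

/-- The dimensions of the graded pieces. -/
theorem Cubics.finrank_F (h : Cubics f1 f2 f3) {d : ℕ} (hd : d ≤ 7) :
    finrank K (F f1 f2 f3 d) = fdim d := by
  have h0 := h.finrank_F_low (e := 0) (by omega)
  have h1 := h.finrank_F_low (e := 1) (by omega)
  have h2 := h.finrank_F_low (e := 2) (by omega)
  have h3 := h.finrank_F_high (s := 0) (by omega)
  have h4 := h.finrank_F_high (s := 1) (by omega)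
  interval_cases d
  · rw [h.F_bot (by omega)]; simp [fdim]
  · rw [h.F_bot (by omega)]; simp [fdim]
  · rw [h.F_bot (by omega)]; simp [fdim]
  · simpa [fdim, Nat.choose] using h0
  · simpa [fdim, Nat.choose] using h1
  · simpa [fdim, Nat.choose] using h2
  · have : finrank K (F f1 f2 f3 6) + 3 = 30 := by simpa [Nat.choose] using h3
    simp only [fdim]; omega
  · have : finrank K (F f1 f2 f3 7) + 9 = 45 := by simpa [Nat.choose] using h4
    simp only [fdim]; omega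

instance instFiniteF (f1 f2 f3 : S K) (d : ℕ) : FiniteDimensional K (F f1 f2 f3 d) :=
  fd_of_le (F_le_H f1 f2 f3 d)

/-- In degree `7` everything lies in `(f1, f2, f3)`. -/
theorem Cubics.F7 (h : Cubics f1 f2 f3) : F f1 f2 f3 7 = H K 7 := by
  refine Submodule.eq_of_le_of_finrank_eq (F_le_H f1 f2 f3 7) ?_
  rw [h.finrank_F le_rfl, finrank_H]
  rfl

theorem Cubics.H7_mem (h : Cubics f1 f2 f3) {p : S K} (hp : p ∈ H K 7) : p ∈ Fid f1 f2 f3 := by
  rw [← h.F7] at hp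
  exact hp.1

end Vale.Agent.P200
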