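import Vale.Agent.Lib.P200.Dims

/-!
# P200: Gorenstein duality for `S/(f1, f2, f3)`
-/

open MvPolynomial Module

namespace Vale.Agent.P200

variable {K : Type*} [Field K] {f1 f2 f3 : S K}

/-- A socle functional: zero exactly on `F 6` in degree `6`. -/
structure IsTau (f1 f2 f3 : S K) (τ : S K →ₗ[K] K) : Prop where
  zero : ∀ p ∈ F f1 f2 f3 6, τ p = 0
  ne : ∀ p ∈ H K 6, p ∉ F f1 f2 f3 6 → τ p ≠ 0

theorem Cubics.exists_tau (h : Cubics f1 f2 f3) : ∃ τ : S K →ₗ[K] K, IsTau f1 f2 f3 τ := by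
  have hr : finrank K (F f1 f2 f3 6) = 27 := h.finrank_F (by omega)
  have hH : finrank K (H K 6) = 28 := by rw [finrank_H]; rfl
  have hlt : F f1 f2 f3 6 < H K 6 := by
    refine lt_of_le_of_ne (F_le_H _ _ _ _) ?_
    intro e
    rw [e, hH] at hr
    omega
  obtain ⟨v, hv, hvn⟩ := SetLike.exists_of_lt hlt
  obtain ⟨τ, hτv, hτ⟩ := Submodule.exists_dual_map_eq_bot_of_notMem hvn inferInstance
  have hz : ∀ p ∈ F f1 f2 f3 6, τ p = 0 := by
    intro p hp
    have : τ p ∈ Submodule.map τ (F f1 f2 f3 6) := Submodule.mem_map_of_mem hp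
    rw [hτ] at this
    simpa using this
  refine ⟨τ, hz, ?_⟩
  intro a ha han
  have hle : F f1 f2 f3 6 ⊔ Submodule.span K {a} ≤ H K 6 :=
    sup_le (F_le_H _ _ _ _) ((Submodule.span_singleton_le_iff_mem _ _).2 ha)
  have hlt2 : F f1 f2 f3 6 < F f1 f2 f3 6 ⊔ Submodule.span K {a} := by
    refine lt_of_le_of_ne le_sup_left ?_
    intro e
    apply han
    rw [e]
    exact Submodule.mem_sup_right (Submodule.mem_span_singleton_self a)
  have : FiniteDimensional K ↥(F f1 f2 f3 6 ⊔ Submodule.span K {a}) := fd_of_le hle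
  have h1 := Submodule.finrank_lt_finrank_of_lt hlt2
  have h2 : F f1 f2 f3 6 ⊔ Submodule.span K {a} = H K 6 := by
    refine Submodule.eq_of_le_of_finrank_le hle ?_
    rw [hH]
    omega
  have hv2 : v ∈ F f1 f2 f3 6 ⊔ Submodule.span K {a} := by rw [h2]; exact hv
  obtain ⟨u, hu, w, hw, rfl⟩ := Submodule.mem_sup.1 hv2
  obtain ⟨c, rfl⟩ := Submodule.mem_span_singleton.1 hw
  intro h0
  apply hτv
  simp [hz u hu, h0]

variable {τ : S K →ₗ[K] K}

/-- The pairing is non degenerate modulo `(f1, f2, f3)`. -/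
theorem Cubics.pairing (h : Cubics f1 f2 f3) (hτ : IsTau f1 f2 f3 τ) (n : ℕ) :
    ∀ {i : ℕ}, i + n = 6 → ∀ {a : S K}, a ∈ H K i → a ∉ Fid f1 f2 f3 →
      ∃ b ∈ H K n, τ (a * b) ≠ 0 := by
  induction n with
  | zero =>
    intro i hi a ha han
    have hi6 : i = 6 := by omega
    subst hi6
    refine ⟨1, isHomogeneous_one _ _, ?_⟩
    rw [mul_one]
    exact hτ.ne a ha (fun hh => han hh.1)
  | succ n ih =>
    intro i hi a ha han
    have hex : ∃ j : Fin 3, X j * a ∉ Fid f1 f2 f3 := by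
      by_contra hh
      push Not at hh
      exact han (socle h.reg h.h1 h.h2 h.h3 (by omega) ha hh)
    obtain ⟨j, hj⟩ := hex
    obtain ⟨b, hb, hτb⟩ := ih (i := i + 1) (by omega)
      (mul_mem_H (X_mem_H1 j) ha (by omega)) hj
    refine ⟨X j * b, mul_mem_H (X_mem_H1 j) hb (by omega), ?_⟩
    have e : a * (X j * b) = X j * a * b := by ring
    rw [e]
    exact hτb

/-- Orthogonal complement of `V` in degree `n`. -/
noncomputable def Perp (τ : S K →ₗ[K] K) (n : ℕ) (V : Submodule K (S K)) : Submodule K (S K) where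
  carrier := {b | b ∈ H K n ∧ ∀ a ∈ V, τ (a * b) = 0}
  add_mem' := by
    rintro x y ⟨hx, hx'⟩ ⟨hy, hy'⟩
    refine ⟨add_mem hx hy, fun a ha => ?_⟩
    rw [mul_add, map_add, hx' a ha, hy' a ha, add_zero]
  zero_mem' := ⟨zero_mem _, fun a _ => by simp⟩
  smul_mem' := by
    rintro c x ⟨hx, hx'⟩
    refine ⟨Submodule.smul_mem _ _ hx, fun a ha => ?_⟩
    rw [mul_smul_comm, map_smul, hx' a ha, smul_zero]

theorem mem_Perp {n : ℕ} {V : Submodule K (S K)} {b : S K} :
    b ∈ Perp τ n V ↔ b ∈ H K n ∧ ∀ a ∈ V, τ (a * b) = 0 := Iff.rfl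

theorem Perp_le_H (n : ℕ) (V : Submodule K (S K)) : Perp τ n V ≤ H K n := fun _ hb => hb.1

instance instFinitePerp (n : ℕ) (V : Submodule K (S K)) : FiniteDimensional K (Perp τ n V) :=
  fd_of_le (Perp_le_H n V)

theorem mem_F_of_mul {f1 f2 f3 a b : S K} {d n m : ℕ} (hdn : d + n = m) (ha : a ∈ H K d)
    (hb : b ∈ F f1 f2 f3 n) : a * b ∈ F f1 f2 f3 m :=
  ⟨Ideal.mul_mem_left _ a hb.1, mul_mem_H ha hb.2 hdn⟩

theorem mem_F_of_mul' {f1 f2 f3 a b : S K} {d n m : ℕ} (hdn : d + n = m) (ha : a ∈ F f1 f2 f3 d)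
    (hb : b ∈ H K n) : a * b ∈ F f1 f2 f3 m :=
  ⟨Ideal.mul_mem_right _ _ ha.1, mul_mem_H ha.2 hb hdn⟩

/-- `F n` is orthogonal to everything in complementary degree. -/
theorem F_le_Perp (hτ : IsTau f1 f2 f3 τ) {d n : ℕ} (hdn : d + n = 6) {V : Submodule K (S K)}
    (hV : V ≤ H K d) : F f1 f2 f3 n ≤ Perp τ n V := by
  intro b hb
  exact ⟨hb.2, fun a ha => hτ.zero _ (mem_F_of_mul hdn (hV ha) hb)⟩

/-- The main dimension formula. -/
theorem Cubics.finrank_Perp (h : Cubics f1 f2 f3) (hτ : IsTau f1 f2 f3 τ) {d n : ℕ}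
    (hdn : d + n = 6) {V : Submodule K (S K)} (hFV : F f1 f2 f3 d ≤ V) (hV : V ≤ H K d) :
    finrank K (Perp τ n V) + finrank K V = (n + 2).choose 2 + fdim d := by
  have : FiniteDimensional K V := fd_of_le hV
  -- the map to the dual
  let Ψ : S K →ₗ[K] Dual K (H K n) :=
    ((LinearMap.mul K (S K)).compr₂ τ).compl₂ (H K n).subtype
  have hΨ : ∀ a : S K, ∀ b : H K n, Ψ a b = τ (a * b) := fun a b => rfl
  let D : Submodule K (Dual K (H K n)) := V.map Ψ
  have h1 := Subspace.finrank_add_finrank_dualCoannihilator_eq D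
  rw [finrank_H] at h1
  -- `Perp` is the coannihilator
  have h2 : Perp τ n V = (Submodule.dualCoannihilator D).map (H K n).subtype := by
    ext b
    constructor
    · rintro ⟨hb, hb'⟩
      refine ⟨⟨b, hb⟩, ?_, rfl⟩
      rw [SetLike.mem_coe, Submodule.mem_dualCoannihilator]
      rintro φ ⟨a, ha, rfl⟩
      exact hb' a ha
    · rintro ⟨⟨b', hb⟩, hb2, rfl⟩
      rw [SetLike.mem_coe, Submodule.mem_dualCoannihilator] at hb2
      refine ⟨hb, fun a ha => ?_⟩
      exact hb2 (Ψ a) ⟨a, ha, rfl⟩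
  have h3 : finrank K (Perp τ n V) = finrank K (Submodule.dualCoannihilator D) := by
    rw [h2]
    exact Submodule.finrank_map_subtype_eq _ _
  -- rank nullity on `V`
  have h4 := LinearMap.finrank_range_add_finrank_ker (Ψ.domRestrict V)
  rw [LinearMap.range_domRestrict] at h4
  have h5 : LinearMap.ker (Ψ.domRestrict V) = Submodule.comap V.subtype (F f1 f2 f3 d) := by
    ext ⟨a, ha⟩
    rw [LinearMap.mem_ker, Submodule.mem_comap]
    constructor
    · intro hz
      refine ⟨?_, hV ha⟩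
      by_contra han
      obtain ⟨b, hb, hab⟩ := h.pairing hτ n hdn (hV ha) han
      apply hab
      have := congrArg (fun φ : Dual K (H K n) => φ ⟨b, hb⟩) hz
      simpa [Ψ] using this
    · intro hz
      refine LinearMap.ext fun b => ?_
      exact hτ.zero _ (mem_F_of_mul' hdn hz b.2)
  have h6 : finrank K (Submodule.comap V.subtype (F f1 f2 f3 d)) = finrank K (F f1 f2 f3 d) :=
    (Submodule.comapSubtypeEquivOfLe hFV).finrank_eq
  rw [h5, h6, h.finrank_F (by omega)] at h4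
  rw [h3]
  change finrank K D + finrank K (Submodule.dualCoannihilator D) = (n + 2).choose 2 at h1
  change finrank K D + fdim d = finrank K V at h4
  omega

/-- The duality step. -/
theorem Cubics.dual_step (h : Cubics f1 f2 f3) (hτ : IsTau f1 f2 f3 τ) {d e : ℕ}
    (hde : d + e = 5) {V : Submodule K (S K)} (hFV : F f1 f2 f3 d ≤ V) (hV : V ≤ H K d)
    (ih : ∀ W : Submodule K (S K), F f1 f2 f3 e ≤ W → W ≤ H K e →
      gT e (finrank K W - fdim e) + fdim (e + 1) ≤ finrank K ↥(M W ⊔ F f1 f2 f3 (e + 1))) :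
    gT e ((e + 2).choose 2 + fdim (d + 1) - finrank K ↥(M V ⊔ F f1 f2 f3 (d + 1)) - fdim e) +
      fdim (e + 1) + finrank K V ≤ (e + 3).choose 2 + fdim d := by
  set T := M V ⊔ F f1 f2 f3 (d + 1) with hT
  have hTle : T ≤ H K (d + 1) := sup_le (M_le_H hV) (F_le_H _ _ _ _)
  have hFT : F f1 f2 f3 (d + 1) ≤ T := le_sup_right
  set W := Perp τ e T with hW
  have hWle : W ≤ H K e := Perp_le_H _ _
  have hFW : F f1 f2 f3 e ≤ W := F_le_Perp hτ (by omega) hTle
  have r1 : finrank K W + finrank K T = (e + 2).choose 2 + fdim (d + 1) :=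
    h.finrank_Perp hτ (d := d + 1) (n := e) (by omega) hFT hTle
  have r2 := h.finrank_Perp hτ (d := d) (n := e + 1) (by omega) hFV hV
  have hle : M W ⊔ F f1 f2 f3 (e + 1) ≤ Perp τ (e + 1) V := by
    refine sup_le ?_ (F_le_Perp hτ (by omega) hV)
    refine iSup_le fun j => ?_
    rintro _ ⟨b, hb, rfl⟩
    refine ⟨mul_mem_H (X_mem_H1 j) (hWle hb) (by omega), fun a ha => ?_⟩
    have e1 : a * (LinearMap.mulLeft K (X j : S K)) b = (X j * a) * b := by
      simp only [LinearMap.mulLeft_apply]; ring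
    rw [e1]
    exact hb.2 _ (Submodule.mem_sup_left (mem_M_X ha j))
  have r3 := ih W hFW hWle
  have r4 := Submodule.finrank_mono hle
  have e3 : (e + 1 + 2) = e + 3 := rfl
  rw [e3] at r2
  have e4 : finrank K W = (e + 2).choose 2 + fdim (d + 1) - finrank K T := by omega
  rw [← e4]
  omega

end Vale.Agent.P200
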