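import Vale.Agent.Lib.P200.Assembly

/-!
# P200: `J` has the Hilbert function of `I`
-/

open MvPolynomial Module

namespace Vale.Agent.P200

variable {K : Type*} [Field K] {f1 f2 f3 : S K}

theorem len_outMonos : ∀ d, d < 7 → fdim d + (outMonos d).length = (d + 2).choose 2 := by
  decide

theorem allTriples_sum : ∀ t ∈ allTriples, t.1 + t.2.1 + t.2.2 ≤ 6 := by decide

theorem allTriples_le : ∀ t ∈ allTriples, t.1 ≤ 2 ∧ t.2.1 ≤ 2 ∧ t.2.2 ≤ 2 := by decide

theorem allTriples_nodup : allTriples.Nodup := by decide

theorem outMonos_nil {d : ℕ} (hd : 7 ≤ d) : outMonos d = [] := by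
  rw [outMonos, List.filter_eq_nil_iff]
  intro t ht
  have := allTriples_sum t ht
  simp only [decide_eq_true_eq]
  omega

theorem outMonos_nodup (d : ℕ) : (outMonos d).Nodup := allTriples_nodup.filter _

/-- exponent vector -/
noncomputable def expv (t : ℕ × ℕ × ℕ) : Fin 3 →₀ ℕ :=
  Finsupp.single 0 t.1 + Finsupp.single 1 t.2.1 + Finsupp.single 2 t.2.2

theorem expv_apply (t : ℕ × ℕ × ℕ) :
    expv t 0 = t.1 ∧ expv t 1 = t.2.1 ∧ expv t 2 = t.2.2 := by
  simp [expv]

theorem expv_inj : Function.Injective expv := by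
  rintro ⟨a, b, c⟩ ⟨a', b', c'⟩ h
  obtain ⟨x1, x2, x3⟩ := expv_apply (a, b, c)
  obtain ⟨y1, y2, y3⟩ := expv_apply (a', b', c')
  rw [h] at x1 x2 x3
  simp only at x1 x2 x3 y1 y2 y3
  simp only [Prod.mk.injEq]
  omega

theorem mono_eq (t : ℕ × ℕ × ℕ) : (mono t : S K) = monomial (expv t) 1 := by
  obtain ⟨a, b, c⟩ := t
  simp only [mono, expv, X_pow_eq_monomial, monomial_mul, mul_one]

/-- The monomials of a list without repetitions are independent. -/
theorem finrank_span_monos {l : List (ℕ × ℕ × ℕ)} (hl : l.Nodup) :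
    finrank K (Submodule.span K {m : S K | ∃ t ∈ l, m = mono t}) = l.length := by
  let b : Fin l.length → S K := fun i => mono (l.get i)
  have hb : LinearIndependent K b := by
    have h0 := (basisMonomials (Fin 3) K).linearIndependent
    have h1 : b = (basisMonomials (Fin 3) K) ∘ (expv ∘ l.get) := by
      funext i
      simp [b, mono_eq, coe_basisMonomials]
    rw [h1]
    refine h0.comp _ (expv_inj.comp ?_)
    exact List.nodup_iff_injective_get.1 hl
  have hr : {m : S K | ∃ t ∈ l, m = mono t} = Set.range b := by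
    ext m
    constructor
    · rintro ⟨t, ht, rfl⟩
      obtain ⟨i, rfl⟩ := List.mem_iff_get.1 ht
      exact ⟨i, rfl⟩
    · rintro ⟨i, rfl⟩
      exact ⟨l.get i, List.get_mem _ _, rfl⟩
  rw [hr, finrank_span_eq_card hb, Fintype.card_fin]

/-- The coefficients of an element of `P` vanish at monomials with small exponents. -/
theorem coeff_cubes {p : S K} (hp : p ∈ cubesIdeal K) {m : Fin 3 →₀ ℕ}
    (hm : m 0 ≤ 2 ∧ m 1 ≤ 2 ∧ m 2 ≤ 2) : coeff m p = 0 := by
  have hset : ({X 0 ^ 3, X 1 ^ 3, X 2 ^ 3} : Set (S K)) =
      (fun s => monomial s (1 : K)) '' ({Finsupp.single 0 3, Finsupp.single 1 3,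
        Finsupp.single 2 3} : Set (Fin 3 →₀ ℕ)) := by
    simp [Set.image_insert_eq, X_pow_eq]
  rw [cubesIdeal, hset, mem_ideal_span_monomial_image] at hp
  by_contra hne
  obtain ⟨s, hs, hle⟩ := hp m (MvPolynomial.mem_support_iff.2 hne)
  rcases (by simpa using hs : s = Finsupp.single 0 3 ∨ s = Finsupp.single 1 3 ∨
      s = Finsupp.single 2 3) with rfl | rfl | rfl
  · have := hle 0
    simp at this
    omega
  · have := hle 1
    simp at this
    omega
  · have := hle 2
    simp at this
    omega

/-- The span of monomials with small exponents meets `P` only in zero. -/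
theorem inf_span_monos {l : List (ℕ × ℕ × ℕ)} (hl : ∀ t ∈ l, t ∈ allTriples) (d : ℕ) :
    ((cubesIdeal K).restrictScalars K ⊓ H K d) ⊓ Submodule.span K {m : S K | ∃ t ∈ l, m = mono t}
      = ⊥ := by
  rw [eq_bot_iff]
  rintro p ⟨⟨hp, -⟩, hY⟩
  rw [Submodule.mem_bot]
  ext m
  rw [coeff_zero]
  by_cases hm : m 0 ≤ 2 ∧ m 1 ≤ 2 ∧ m 2 ≤ 2
  · exact coeff_cubes hp hm
  · -- coefficients of the span vanish here
    let L : S K →ₗ[K] K :=
      { toFun := coeff m
        map_add' := coeff_add m
        map_smul' := fun c p => coeff_smul m c p }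
    have hle : Submodule.span K {m : S K | ∃ t ∈ l, m = mono t} ≤ LinearMap.ker L := by
      refine Submodule.span_le.2 ?_
      rintro _ ⟨t, ht, rfl⟩
      have ht2 := allTriples_le t (hl t ht)
      obtain ⟨x1, x2, x3⟩ := expv_apply t
      show coeff m (mono t : S K) = 0
      rw [mono_eq, coeff_monomial, if_neg]
      rintro rfl
      apply hm
      rw [x1, x2, x3]
      exact ht2
    exact hle hY

/-- In degree at least 7 every form lies in `(f1, f2, f3)`. -/
theorem Cubics.H_mem_high (h : Cubics f1 f2 f3) {d : ℕ} (hd : 7 ≤ d) {p : S K} (hp : p ∈ H K d) :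
    p ∈ Fid f1 f2 f3 := by
  induction d, hd using Nat.le_induction generalizing p with
  | base => exact h.H7_mem hp
  | succ d _ ih =>
    have hle : H K d ≤ (Fid f1 f2 f3).restrictScalars K := fun q hq => ih hq
    have := M_le_ideal hle
    rw [M_H] at this
    exact this hp

/-- **The Hilbert function of `J`**. -/
theorem finrank_Jd (I : Ideal (S K)) (h : Cubics f1 f2 f3)
    (h1 : f1 ∈ I) (h2 : f2 ∈ I) (h3 : f3 ∈ I) (d : ℕ) : finrank K (Jd I d) = gdim I d := by
  have hFI : Fid f1 f2 f3 ≤ I := by
    refine Ideal.span_le.2 ?_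
    rintro x (rfl | rfl | rfl)
    · exact h1
    · exact h2
    · exact h3
  by_cases hd : d < 7
  · have hgP := gdim_cubes (K := K) (d := d) (by omega)
    have hF : finrank K (F f1 f2 f3 d) = fdim d := h.finrank_F (by omega)
    have hFV : F f1 f2 f3 d ≤ I.restrictScalars K ⊓ H K d := fun p hp => ⟨hFI hp.1, hp.2⟩
    have : FiniteDimensional K ↥(I.restrictScalars K ⊓ H K d) := fd_of_le inf_le_right
    have hge : fdim d ≤ gdim I d := by
      rw [← hF]
      exact Submodule.finrank_mono hFV
    have hle : gdim I d ≤ (d + 2).choose 2 := by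
      rw [← finrank_H (K := K) d]
      exact Submodule.finrank_mono inf_le_right
    have hq : qd I d = gdim I d - fdim d := by
      rw [qd, hgP]
    have hlen := len_outMonos d hd
    have htake : ((outMonos d).take (qd I d)).length = qd I d := by
      rw [List.length_take]
      omega
    have hnd : ((outMonos d).take (qd I d)).Nodup := (outMonos_nodup d).sublist (List.take_sublist _ _)
    have hY := finrank_span_monos (K := K) hnd
    have hinf := inf_span_monos (K := K) (l := (outMonos d).take (qd I d))
      (fun t ht => (mem_outMonos (List.mem_of_mem_take ht)).1) d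
    have : FiniteDimensional K ↥((cubesIdeal K).restrictScalars K ⊓ H K d) := fd_of_le inf_le_right
    have : FiniteDimensional K (Submodule.span K {m : S K | ∃ t ∈ (outMonos d).take (qd I d),
        m = mono t}) := by
      have hfin : {m : S K | ∃ t ∈ (outMonos d).take (qd I d), m = mono t}.Finite := by
        have : {m : S K | ∃ t ∈ (outMonos d).take (qd I d), m = mono t} =
            mono '' {t | t ∈ (outMonos d).take (qd I d)} := by
          ext m
          constructor
          · rintro ⟨t, ht, rfl⟩
            exact ⟨t, ht, rfl⟩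
          · rintro ⟨t, ht, rfl⟩
            exact ⟨t, ht, rfl⟩
        rw [this]
        exact (List.finite_toSet _).image _
      exact FiniteDimensional.span_of_finite K hfin
    have hsum := Submodule.finrank_sup_add_finrank_inf_eq
      ((cubesIdeal K).restrictScalars K ⊓ H K d)
      (Submodule.span K {m : S K | ∃ t ∈ (outMonos d).take (qd I d), m = mono t})
    rw [hinf, finrank_bot, hY, htake] at hsum
    have hP : finrank K ↥((cubesIdeal K).restrictScalars K ⊓ H K d) = fdim d := hgP
    rw [hP] at hsum
    show finrank K ↥(((cubesIdeal K).restrictScalars K ⊓ H K d) ⊔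
      Submodule.span K {m : S K | ∃ t ∈ (outMonos d).take (qd I d), m = mono t}) = _
    omega
  · have hd7 : 7 ≤ d := by omega
    have hP : (cubesIdeal K).restrictScalars K ⊓ H K d = H K d := by
      refine inf_eq_right.2 fun p hp => ?_
      exact cubics_cubes.H_mem_high hd7 hp
    have hI : I.restrictScalars K ⊓ H K d = H K d := by
      refine inf_eq_right.2 fun p hp => ?_
      exact hFI (h.H_mem_high hd7 hp)
    have hJ : Jd I d = H K d := by
      rw [Jd, outMonos_nil hd7, hP]
      simp
    rw [hJ, gdim, hI]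

end Vale.Agent.P200
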