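import Vale.Agent.Lib.P200.Basic

/-!
# P200: regular sequences of three forms, the Koszul lemma, the socle lemma
-/

open MvPolynomial Module

namespace Vale.Agent.P200

variable {K : Type*} [Field K]

/-- `f1, f2, f3` is a regular sequence: multiplication by `f_i` is injective on
`S/(f_1,...,f_{i-1})`. -/
structure RegSeq (f1 f2 f3 : S K) : Prop where
  ne : f1 ≠ 0
  reg2 : ∀ g, f2 * g ∈ Ideal.span {f1} → g ∈ Ideal.span {f1}
  reg3 : ∀ g, f3 * g ∈ Ideal.span {f1, f2} → g ∈ Ideal.span {f1, f2}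

section Koszul

variable {f1 f2 f3 : S K}

/-- Syzygies of a regular sequence are Koszul. -/
theorem koszul (h : RegSeq f1 f2 f3) {g1 g2 g3 : S K} (e : f1 * g1 + f2 * g2 + f3 * g3 = 0) :
    ∃ a b c : S K, g1 = -(f2 * c) - f3 * a ∧ g2 = f1 * c - f3 * b ∧ g3 = f1 * a + f2 * b := by
  have h3 : f3 * g3 ∈ Ideal.span {f1, f2} :=
    Ideal.mem_span_pair.2 ⟨-g1, -g2, by linear_combination -e⟩
  obtain ⟨a, b, hab⟩ := Ideal.mem_span_pair.1 (h.reg3 g3 h3)
  have h2 : f2 * (g2 + f3 * b) ∈ Ideal.span {f1} := by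
    refine Ideal.mem_span_singleton'.2 ⟨-(g1 + f3 * a), ?_⟩
    linear_combination (-1 : S K) * e - f3 * hab
  obtain ⟨c, hc⟩ := Ideal.mem_span_singleton'.1 (h.reg2 _ h2)
  refine ⟨a, b, c, ?_, ?_, ?_⟩
  · apply mul_left_cancel₀ h.ne
    linear_combination e - f2 * hc.symm - f3 * hab.symm
  · linear_combination hc.symm
  · linear_combination -hab

/-- Homogeneous version of the Koszul lemma. -/
theorem koszul_h (h : RegSeq f1 f2 f3) (h1 : f1 ∈ H K 3) (h2 : f2 ∈ H K 3) (h3 : f3 ∈ H K 3)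
    {n : ℕ} {g1 g2 g3 : S K} (hg1 : g1 ∈ H K n) (hg2 : g2 ∈ H K n) (hg3 : g3 ∈ H K n)
    (e : f1 * g1 + f2 * g2 + f3 * g3 = 0) :
    ∃ a b c : S K, a ∈ H K (n - 3) ∧ b ∈ H K (n - 3) ∧ c ∈ H K (n - 3) ∧
      g1 = -(f2 * c) - f3 * a ∧ g2 = f1 * c - f3 * b ∧ g3 = f1 * a + f2 * b := by
  obtain ⟨a, b, c, e1, e2, e3⟩ := koszul h e
  by_cases hn : n < 3
  · refine ⟨0, 0, 0, zero_mem _, zero_mem _, zero_mem _, ?_, ?_, ?_⟩
    · have : g1 = homogeneousComponent n g1 := (hc_of_mem hg1).symm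
      rw [this, e1, map_sub, map_neg, hc_mul_lt h2 _ hn, hc_mul_lt h3 _ hn]; simp
    · have : g2 = homogeneousComponent n g2 := (hc_of_mem hg2).symm
      rw [this, e2, map_sub, hc_mul_lt h1 _ hn, hc_mul_lt h3 _ hn]; simp
    · have : g3 = homogeneousComponent n g3 := (hc_of_mem hg3).symm
      rw [this, e3, map_add, hc_mul_lt h1 _ hn, hc_mul_lt h2 _ hn]; simp
  · obtain ⟨s, rfl⟩ : ∃ s, n = s + 3 := ⟨n - 3, by omega⟩
    refine ⟨homogeneousComponent s a, homogeneousComponent s b, homogeneousComponent s c,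
      hc_mem _ _, hc_mem _ _, hc_mem _ _, ?_, ?_, ?_⟩
    · have : g1 = homogeneousComponent (s+3) g1 := (hc_of_mem hg1).symm
      rw [this, e1, map_sub, map_neg, hc_mul h2, hc_mul h3]
    · have : g2 = homogeneousComponent (s+3) g2 := (hc_of_mem hg2).symm
      rw [this, e2, map_sub, hc_mul h1, hc_mul h3]
    · have : g3 = homogeneousComponent (s+3) g3 := (hc_of_mem hg3).symm
      rw [this, e3, map_add, hc_mul h1, hc_mul h2]

theorem RegSeq.f2_ne (h : RegSeq f1 f2 f3) (h1 : f1 ∈ H K 3) : f2 ≠ 0 := by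
  rintro rfl
  have := h.reg2 1 (by simp)
  obtain ⟨q, hq⟩ := Ideal.mem_span_singleton'.1 this
  have hq0 : q ≠ 0 := by
    rintro rfl
    simp at hq
  have hd := congrArg totalDegree hq
  rw [totalDegree_mul_of_isDomain hq0 h.ne, IsHomogeneous.totalDegree h1 h.ne] at hd
  simp at hd

theorem constantCoeff_of_pos {p : S K} {n : ℕ} (hp : p ∈ H K (n+1)) : constantCoeff p = 0 := by
  rw [constantCoeff_eq]
  by_contra hne
  have := hp hne
  simp at this

theorem RegSeq.f3_ne (h : RegSeq f1 f2 f3) (h1 : f1 ∈ H K 3) (h2 : f2 ∈ H K 3) : f3 ≠ 0 := by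
  rintro rfl
  have := h.reg3 1 (by simp)
  obtain ⟨a, b, hab⟩ := Ideal.mem_span_pair.1 this
  have := congrArg (constantCoeff : S K →+* K) hab
  rw [map_add, map_mul, map_mul, constantCoeff_of_pos (n := 2) h1,
    constantCoeff_of_pos (n := 2) h2] at this
  simp at this

/-- The second syzygy: in degree below `3` the Koszul map is injective. -/
theorem koszul_inj (h : RegSeq f1 f2 f3) (h1 : f1 ∈ H K 3) (h2 : f2 ∈ H K 3)
    {t : ℕ} (ht : t < 3) {a b c : S K} (ha : a ∈ H K t)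
    (_e1 : -(f2 * c) - f3 * a = 0) (e2 : f1 * c - f3 * b = 0) (e3 : f1 * a + f2 * b = 0) :
    a = 0 ∧ b = 0 ∧ c = 0 := by
  have hb : b ∈ Ideal.span {f1} := by
    refine h.reg2 b (Ideal.mem_span_singleton'.2 ⟨-a, ?_⟩)
    linear_combination -e3
  obtain ⟨d, hd⟩ := Ideal.mem_span_singleton'.1 hb
  have ha2 : a = -(f2 * d) := by
    apply mul_left_cancel₀ h.ne
    rw [← hd] at e3
    linear_combination e3
  have had : a = 0 := by
    have : a = homogeneousComponent t a := (hc_of_mem ha).symm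
    rw [this, ha2, map_neg, hc_mul_lt h2 _ ht]; simp
  have hd0 : d = 0 := by
    have h2ne := h.f2_ne h1
    have : f2 * d = 0 := by
      rw [had] at ha2
      linear_combination ha2
    exact (mul_eq_zero.1 this).resolve_left h2ne
  have hb0 : b = 0 := by rw [← hd, hd0, zero_mul]
  have hc0 : c = 0 := by
    apply mul_left_cancel₀ h.ne
    rw [hb0] at e2
    linear_combination e2
  exact ⟨had, hb0, hc0⟩

/-- The ideal generated by the three forms. -/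
noncomputable def Fid (f1 f2 f3 : S K) : Ideal (S K) := Ideal.span {f1, f2, f3}

theorem mem_Fid {f1 f2 f3 p : S K} :
    p ∈ Fid f1 f2 f3 ↔ ∃ a b c : S K, p = f1 * a + f2 * b + f3 * c := by
  unfold Fid
  rw [Ideal.mem_span_insert]
  constructor
  · rintro ⟨a, z, hz, rfl⟩
    obtain ⟨b, c, rfl⟩ := Ideal.mem_span_pair.1 hz
    exact ⟨a, b, c, by ring⟩
  · rintro ⟨a, b, c, rfl⟩
    exact ⟨a, f2 * b + f3 * c, Ideal.mem_span_pair.2 ⟨b, c, by ring⟩, by ring⟩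

theorem f1_mem_Fid {f1 f2 f3 : S K} : f1 ∈ Fid f1 f2 f3 := mem_Fid.2 ⟨1, 0, 0, by ring⟩
theorem f2_mem_Fid {f1 f2 f3 : S K} : f2 ∈ Fid f1 f2 f3 := mem_Fid.2 ⟨0, 1, 0, by ring⟩
theorem f3_mem_Fid {f1 f2 f3 : S K} : f3 ∈ Fid f1 f2 f3 := mem_Fid.2 ⟨0, 0, 1, by ring⟩

/-- Homogeneous elements of degree `s+3` of the ideal have homogeneous coefficients. -/
theorem Fid_repr (h1 : f1 ∈ H K 3) (h2 : f2 ∈ H K 3) (h3 : f3 ∈ H K 3) {s : ℕ} {p : S K}
    (hp : p ∈ Fid f1 f2 f3) (hph : p ∈ H K (s+3)) :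
    ∃ a b c : S K, a ∈ H K s ∧ b ∈ H K s ∧ c ∈ H K s ∧ p = f1 * a + f2 * b + f3 * c := by
  obtain ⟨a, b, c, rfl⟩ := mem_Fid.1 hp
  refine ⟨_, _, _, hc_mem a s, hc_mem b s, hc_mem c s, ?_⟩
  rw [← hc_of_mem hph, map_add, map_add, hc_mul h1, hc_mul h2, hc_mul h3]

theorem Fid_low (h1 : f1 ∈ H K 3) (h2 : f2 ∈ H K 3) (h3 : f3 ∈ H K 3) {d : ℕ} {p : S K}
    (hp : p ∈ Fid f1 f2 f3) (hph : p ∈ H K d) (hd : d < 3) : p = 0 := by
  obtain ⟨a, b, c, rfl⟩ := mem_Fid.1 hp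
  rw [← hc_of_mem hph, map_add, map_add, hc_mul_lt h1 _ hd, hc_mul_lt h2 _ hd, hc_mul_lt h3 _ hd]
  simp

/-- The regular sequence `x, y, z`. -/
theorem regSeq_X : RegSeq (X 0 : S K) (X 1) (X 2) := by
  refine ⟨X_ne_zero _, ?_, ?_⟩
  · intro g hg
    have hg' : (X 0 : S K) ∣ X 1 * g := Ideal.mem_span_singleton.1 hg
    rcases (X_prime (i := (0 : Fin 3)) (R := K)).dvd_or_dvd hg' with h | h
    · exact absurd (X_dvd_X.1 h) (by decide)
    · exact Ideal.mem_span_singleton.2 h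
  · intro g hg
    have hset : ({X 0, X 1} : Set (S K)) = X '' ({0, 1} : Set (Fin 3)) := by
      simp [Set.image_insert_eq]
    rw [hset] at hg ⊢
    rw [mem_ideal_span_X_image] at hg ⊢
    intro m hm
    have hm2 : (m + Finsupp.single (2 : Fin 3) 1) ∈ (X 2 * g).support := by
      rw [MvPolynomial.mem_support_iff, mul_comm, coeff_mul_X]
      exact MvPolynomial.mem_support_iff.1 hm
    obtain ⟨i, hi, hi2⟩ := hg _ hm2
    refine ⟨i, hi, ?_⟩
    have : i ≠ 2 := by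
      rintro rfl
      simp at hi
    simpa [Finsupp.single_apply, this.symm] using hi2

end Koszul

section Socle

variable {f1 f2 f3 : S K}


theorem lin_triple {U V W : S K} (h1 : (X 1 : S K) * U = (X 0 : S K) * V) (h2 : (X 2 : S K) * U = (X 0 : S K) * W) :
    ∃ t : S K, U = (X 0 : S K) * t ∧ V = (X 1 : S K) * t ∧ W = (X 2 : S K) * t := by
  have hd : (X 0 : S K) ∣ (X 1 : S K) * U := ⟨V, h1⟩
  rcases (X_prime (i := (0 : Fin 3)) (R := K)).dvd_or_dvd hd with h | h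
  · exact absurd (X_dvd_X.1 h) (by decide)
  · obtain ⟨t, rfl⟩ := h
    refine ⟨t, rfl, ?_, ?_⟩
    · apply mul_left_cancel₀ (X_ne_zero (0 : Fin 3) : (X 0 : S K) ≠ 0)
      linear_combination -h1
    · apply mul_left_cancel₀ (X_ne_zero (0 : Fin 3) : (X 0 : S K) ≠ 0)
      linear_combination -h2

/-- **Socle lemma**: `S/(f_1,f_2,f_3)` has no socle below degree `6`. -/
theorem socle (h : RegSeq f1 f2 f3) (h1 : f1 ∈ H K 3) (h2 : f2 ∈ H K 3) (h3 : f3 ∈ H K 3)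
    {d : ℕ} (hd : d ≤ 5) {p : S K} (hp : p ∈ H K d)
    (hx : ∀ j : Fin 3, X j * p ∈ Fid f1 f2 f3) : p ∈ Fid f1 f2 f3 := by
  by_cases hd2 : d < 2
  · have h0 := Fid_low h1 h2 h3 (hx 0)
      (mul_mem_H (X_mem_H1 0) hp (rfl : 1 + d = 1 + d)) (by omega)
    have : p = 0 := (mul_eq_zero.1 h0).resolve_left (X_ne_zero _)
    rw [this]; exact zero_mem _
  obtain ⟨s, rfl⟩ : ∃ s, d = s + 2 := ⟨d - 2, by omega⟩
  have hdeg : ∀ j : Fin 3, X j * p ∈ H K (s + 3) := fun j =>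
    mul_mem_H (X_mem_H1 j) hp (by omega)
  obtain ⟨u1, u2, u3, hu1, hu2, hu3, hu⟩ := Fid_repr h1 h2 h3 (hx 0) (hdeg 0)
  obtain ⟨v1, v2, v3, hv1, hv2, hv3, hv⟩ := Fid_repr h1 h2 h3 (hx 1) (hdeg 1)
  obtain ⟨w1, w2, w3, hw1, hw2, hw3, hw⟩ := Fid_repr h1 h2 h3 (hx 2) (hdeg 2)
  have hxH : (X 0 : S K) ∈ H K 1 := X_mem_H1 0
  have hyH : (X 1 : S K) ∈ H K 1 := X_mem_H1 1
  have hzH : (X 2 : S K) ∈ H K 1 := X_mem_H1 2
  have hlin : ∀ {a b : S K}, a ∈ H K s → b ∈ H K s → ∀ {l m : S K}, l ∈ H K 1 → m ∈ H K 1 →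
      l * a - m * b ∈ H K (s + 1) := by
    intro a b ha hb l m hl hm
    exact sub_mem (mul_mem_H hl ha (by omega)) (mul_mem_H hm hb (by omega))
  -- first layer of syzygies
  obtain ⟨a1, b1, c1, ha1, hb1, hc1, e11, e12, e13⟩ := koszul_h h h1 h2 h3
    (hlin hu1 hv1 hyH hxH) (hlin hu2 hv2 hyH hxH) (hlin hu3 hv3 hyH hxH)
    (by linear_combination (X 1 : S K) * hu.symm - (X 0 : S K) * hv.symm)
  obtain ⟨a2, b2, c2, ha2, hb2, hc2, e21, e22, e23⟩ := koszul_h h h1 h2 h3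
    (hlin hu1 hw1 hzH hxH) (hlin hu2 hw2 hzH hxH) (hlin hu3 hw3 hzH hxH)
    (by linear_combination (X 2 : S K) * hu.symm - (X 0 : S K) * hw.symm)
  obtain ⟨a3, b3, c3, ha3, hb3, hc3, e31, e32, e33⟩ := koszul_h h h1 h2 h3
    (hlin hv1 hw1 hzH hyH) (hlin hv2 hw2 hzH hyH) (hlin hv3 hw3 hzH hyH)
    (by linear_combination (X 2 : S K) * hv.symm - (X 1 : S K) * hw.symm)
  -- the combination `(X 2 : S K) A - (X 1 : S K) B + (X 0 : S K) C` is killed by the Koszul map, hence vanishes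
  have hcomb : ∀ {a b c : S K}, a ∈ H K (s + 1 - 3) → b ∈ H K (s + 1 - 3) → c ∈ H K (s + 1 - 3) →
      (X 2 : S K) * a - (X 1 : S K) * b + (X 0 : S K) * c ∈ H K (s + 1 - 3 + 1) := by
    intro a b c ha hb hc
    exact add_mem (sub_mem (mul_mem_H hzH ha (by omega)) (mul_mem_H hyH hb (by omega)))
      (mul_mem_H hxH hc (by omega))
  have hs3 : s + 1 - 3 + 1 < 3 := by omega
  obtain ⟨za, zb, zc⟩ := koszul_inj h h1 h2 hs3 (hcomb ha1 ha2 ha3)
    (a := (X 2 : S K) * a1 - (X 1 : S K) * a2 + (X 0 : S K) * a3) (b := (X 2 : S K) * b1 - (X 1 : S K) * b2 + (X 0 : S K) * b3) (c := (X 2 : S K) * c1 - (X 1 : S K) * c2 + (X 0 : S K) * c3)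
    (by linear_combination (X 2 : S K) * (-e11) + (X 1 : S K) * e21 - (X 0 : S K) * e31 )
    (by linear_combination (X 2 : S K) * (-e12) + (X 1 : S K) * e22 - (X 0 : S K) * e32 )
    (by linear_combination (X 2 : S K) * (-e13) + (X 1 : S K) * e23 - (X 0 : S K) * e33 )
  -- Koszul for `(X 0 : S K), (X 1 : S K), (X 2 : S K)`
  obtain ⟨pa, qa, ra, ea1, ea2, ea3⟩ := koszul (regSeq_X (K := K))
    (g1 := a3) (g2 := -a2) (g3 := a1) (by linear_combination za)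
  obtain ⟨pb, qb, rb, eb1, eb2, eb3⟩ := koszul (regSeq_X (K := K))
    (g1 := b3) (g2 := -b2) (g3 := b1) (by linear_combination zb)
  obtain ⟨pc, qc, rc, ec1, ec2, ec3⟩ := koszul (regSeq_X (K := K))
    (g1 := c3) (g2 := -c2) (g3 := c1) (by linear_combination zc)
  -- corrected coefficients
  set U1 := u1 - (-(f2 * qc) - f3 * qa) with hU1
  set U2 := u2 - (f1 * qc - f3 * qb) with hU2
  set U3 := u3 - (f1 * qa + f2 * qb) with hU3
  set V1 := v1 + (-(f2 * pc) - f3 * pa) with hV1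
  set V2 := v2 + (f1 * pc - f3 * pb) with hV2
  set V3 := v3 + (f1 * pa + f2 * pb) with hV3
  set W1 := w1 - (-(f2 * rc) - f3 * ra) with hW1
  set W2 := w2 - (f1 * rc - f3 * rb) with hW2
  set W3 := w3 - (f1 * ra + f2 * rb) with hW3
  have r11 : (X 1 : S K) * U1 = (X 0 : S K) * V1 := by
    simp only [hU1, hV1]; linear_combination e11 - f2 * ec3 - f3 * ea3
  have r12 : (X 1 : S K) * U2 = (X 0 : S K) * V2 := by
    simp only [hU2, hV2]; linear_combination e12 + f1 * ec3 - f3 * eb3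
  have r13 : (X 1 : S K) * U3 = (X 0 : S K) * V3 := by
    simp only [hU3, hV3]; linear_combination e13 + f1 * ea3 + f2 * eb3
  have r21 : (X 2 : S K) * U1 = (X 0 : S K) * W1 := by
    simp only [hU1, hW1]; linear_combination e21 + f2 * ec2 + f3 * ea2
  have r22 : (X 2 : S K) * U2 = (X 0 : S K) * W2 := by
    simp only [hU2, hW2]; linear_combination e22 - f1 * ec2 + f3 * eb2
  have r23 : (X 2 : S K) * U3 = (X 0 : S K) * W3 := by
    simp only [hU3, hW3]; linear_combination e23 - f1 * ea2 - f2 * eb2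
  obtain ⟨t1, ht1, -, -⟩ := lin_triple r11 r21
  obtain ⟨t2, ht2, -, -⟩ := lin_triple r12 r22
  obtain ⟨t3, ht3, -, -⟩ := lin_triple r13 r23
  refine mem_Fid.2 ⟨t1, t2, t3, ?_⟩
  apply mul_left_cancel₀ (X_ne_zero (0 : Fin 3) : (X 0 : S K) ≠ 0)
  have hUsum : f1 * U1 + f2 * U2 + f3 * U3 = f1 * u1 + f2 * u2 + f3 * u3 := by
    simp only [hU1, hU2, hU3]; ring
  rw [ht1, ht2, ht3] at hUsum
  linear_combination hu - hUsum

end Socle

end Vale.Agent.P200
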