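import Vale.Agent.Lib.P200.Dims

/-!
# P200: two forms of low degree cannot generate an ideal containing `(f1, f2, f3)`
-/

open MvPolynomial Module

namespace Vale.Agent.P200

variable {K : Type*} [Field K] {f1 f2 f3 : S K}

/-- multiplication between graded pieces -/
noncomputable def mulHH (p : S K) {a : ℕ} (hp : p ∈ H K a) (s n : ℕ) (hn : a + s = n) :
    H K s →ₗ[K] H K n :=
  LinearMap.codRestrict (H K n) (mulH p s) (fun x => mul_mem_H hp x.2 hn)

@[simp] theorem mulHH_coe (p : S K) {a : ℕ} (hp : p ∈ H K a) (s n : ℕ) (hn : a + s = n)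
    (x : H K s) : (mulHH p hp s n hn x : S K) = p * x := rfl

/-- Dimension count: if `(p, p')` contains `(f1, f2, f3)`, then it contains all forms of degree 7. -/
theorem Cubics.obstruct_count (h : Cubics f1 f2 f3) {p p' : S K} {e e' a b c : ℕ}
    (hp : p ∈ H K e) (hp' : p' ∈ H K e') (hp0 : p ≠ 0)
    (hea : e + a = 7) (heb : e' + b = 7) (hc1 : e' + c = a) (hc2 : e + c = b)
    (hf1 : f1 ∈ Ideal.span {p, p'}) (hf2 : f2 ∈ Ideal.span {p, p'})
    (hf3 : f3 ∈ Ideal.span {p, p'}) :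
    36 + (c + 2).choose 2 ≤ (a + 2).choose 2 + (b + 2).choose 2 := by
  let Ψ : (H K a × H K b) →ₗ[K] S K := (mulH p a).coprod (mulH p' b)
  have hΨ : ∀ (u : H K a) (w : H K b), Ψ (u, w) = p * u + p' * w := fun u w => by simp [Ψ]
  -- range contains the degree 7 forms
  have hFid : Fid f1 f2 f3 ≤ Ideal.span {p, p'} := by
    refine Ideal.span_le.2 ?_
    rintro x (rfl | rfl | rfl)
    · exact hf1
    · exact hf2
    · exact hf3
  have hrange : H K 7 ≤ LinearMap.range Ψ := by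
    intro q hq
    obtain ⟨u, w, huw⟩ := Ideal.mem_span_pair.1 (hFid (h.H7_mem hq))
    refine ⟨(⟨_, hc_mem u a⟩, ⟨_, hc_mem w b⟩), ?_⟩
    rw [hΨ, ← hc_of_mem hq, ← huw, map_add]
    congr 1
    · have := hc_mul hp u a
      rw [show a + e = 7 by omega] at this
      rw [mul_comm u p, this]
    · have := hc_mul hp' w b
      rw [show b + e' = 7 by omega] at this
      rw [mul_comm w p', this]
  -- the Koszul syzygies
  let θ : H K c →ₗ[K] (H K a × H K b) :=
    LinearMap.prod (mulHH p' hp' c a hc1) (-(mulHH p hp c b hc2))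
  have hθinj : Function.Injective θ := by
    rw [injective_iff_map_eq_zero]
    intro t ht
    have h2 : ((θ t).2 : S K) = 0 := by rw [ht]; rfl
    have h3 : ((θ t).2 : S K) = -(p * t) := by
      simp [θ]
    rw [h3, neg_eq_zero] at h2
    exact Subtype.ext ((mul_eq_zero.1 h2).resolve_left hp0)
  have hθker : LinearMap.range θ ≤ LinearMap.ker Ψ := by
    rintro _ ⟨t, rfl⟩
    rw [LinearMap.mem_ker]
    have e1 : θ t = (⟨p' * t, mul_mem_H hp' t.2 hc1⟩, ⟨-(p * t), neg_mem (mul_mem_H hp t.2 hc2)⟩) := by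
      rfl
    rw [e1, hΨ]
    ring
  have hr := LinearMap.finrank_range_add_finrank_ker Ψ
  rw [Module.finrank_prod, finrank_H, finrank_H] at hr
  have h1 : finrank K (H K 7) ≤ finrank K (LinearMap.range Ψ) := Submodule.finrank_mono hrange
  rw [finrank_H] at h1
  have h2 : finrank K (LinearMap.range θ) ≤ finrank K (LinearMap.ker Ψ) :=
    Submodule.finrank_mono hθker
  rw [LinearMap.finrank_range_of_inj hθinj, finrank_H] at h2
  have h3 : (7 + 2).choose 2 = 36 := rfl
  omega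

/-- The four cases used below. -/
theorem Cubics.obstruct2 (h : Cubics f1 f2 f3) {p p' : S K} {e e' : ℕ}
    (hp : p ∈ H K e) (hp' : p' ∈ H K e') (hp0 : p ≠ 0)
    (hee : (e = 2 ∧ e' = 3) ∨ (e = 2 ∧ e' = 2) ∨ (e = 1 ∧ e' = 3) ∨ (e = 1 ∧ e' = 2))
    (hf1 : f1 ∈ Ideal.span {p, p'}) (hf2 : f2 ∈ Ideal.span {p, p'})
    (hf3 : f3 ∈ Ideal.span {p, p'}) : False := by
  rcases hee with ⟨rfl, rfl⟩ | ⟨rfl, rfl⟩ | ⟨rfl, rfl⟩ | ⟨rfl, rfl⟩
  · have := h.obstruct_count (c := 2) hp hp' hp0 rfl rfl rfl rfl hf1 hf2 hf3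
    simp [Nat.choose] at this
  · have := h.obstruct_count (c := 3) hp hp' hp0 rfl rfl rfl rfl hf1 hf2 hf3
    simp [Nat.choose] at this
  · have := h.obstruct_count (c := 3) hp hp' hp0 rfl rfl rfl rfl hf1 hf2 hf3
    simp [Nat.choose] at this
  · have := h.obstruct_count (c := 4) hp hp' hp0 rfl rfl rfl rfl hf1 hf2 hf3
    simp [Nat.choose] at this

end Vale.Agent.P200
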