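import Vale.Agent.Lib.P200.Obstruct

/-!
# P200: linear and quadratic syzygies of quadrics
-/

open MvPolynomial Module

namespace Vale.Agent.P200

variable {K : Type*} [Field K]

/-- Two forms are independent over `K`. -/
def Ind2 (Q1 Q2 : S K) : Prop := ∀ a b : K, a • Q1 + b • Q2 = 0 → a = 0 ∧ b = 0

/-- Three forms are independent over `K`. -/
def Ind3 (Q1 Q2 Q3 : S K) : Prop :=
  ∀ a b c : K, a • Q1 + b • Q2 + c • Q3 = 0 → a = 0 ∧ b = 0 ∧ c = 0

/-- Two forms have a nontrivial linear syzygy. -/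
def LS (Q1 Q2 : S K) : Prop :=
  ∃ a b : S K, a ∈ H K 1 ∧ b ∈ H K 1 ∧ (a ≠ 0 ∨ b ≠ 0) ∧ a * Q1 + b * Q2 = 0

theorem Ind2.left_ne {Q1 Q2 : S K} (h : Ind2 Q1 Q2) : Q1 ≠ 0 := by
  rintro rfl
  exact one_ne_zero (h 1 0 (by simp)).1

theorem Ind2.right_ne {Q1 Q2 : S K} (h : Ind2 Q1 Q2) : Q2 ≠ 0 := by
  rintro rfl
  exact one_ne_zero (h 0 1 (by simp)).2

/-- A linear syzygy gives a common linear factor. -/
theorem LS.factor {Q1 Q2 : S K} (h2 : Q2 ∈ H K 2) (hi : Ind2 Q1 Q2) (hs : LS Q1 Q2) :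
    ∃ c m1 m2 : S K, c ∈ H K 1 ∧ m1 ∈ H K 1 ∧ m2 ∈ H K 1 ∧ Q1 = c * m1 ∧ Q2 = c * m2 := by
  obtain ⟨a, b, ha, hb, hab, e⟩ := hs
  have hQ2 := hi.right_ne
  have ha0 : a ≠ 0 := by
    rintro rfl
    have hb0 : b = 0 := by
      have : b * Q2 = 0 := by linear_combination e
      exact (mul_eq_zero.1 this).resolve_right hQ2
    simp [hb0] at hab
  have hd : a ∣ b * Q2 := ⟨-Q1, by linear_combination e⟩
  rcases (prime_of_H1 ha ha0).dvd_or_dvd hd with hd | hd
  · obtain ⟨q, hq⟩ := hd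
    obtain ⟨t, ht⟩ := H1_dvd_H1 ha hb hq
    exfalso
    have e2 : a * (Q1 + C t * Q2) = 0 := by
      rw [ht] at e
      linear_combination e
    have e3 : Q1 + C t * Q2 = 0 := (mul_eq_zero.1 e2).resolve_left ha0
    have e4 : (1 : K) • Q1 + t • Q2 = 0 := by
      rw [one_smul, smul_eq_C_mul]
      exact e3
    exact one_ne_zero (hi 1 t e4).1
  · obtain ⟨q, hq⟩ := hd
    have hq1 := dvd_factor (n := 1) ha h2 hq
    set m := homogeneousComponent 1 q with hm
    refine ⟨m, -b, a, hc_mem q 1, neg_mem hb, ha, ?_, ?_⟩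
    · apply mul_left_cancel₀ ha0
      rw [hq1] at e
      linear_combination e
    · rw [hq1]; ring

theorem deg_one_components {p : S K} (hp : p.totalDegree ≤ 1) :
    p = homogeneousComponent 0 p + homogeneousComponent 1 p := by
  have h := sum_homogeneousComponent p
  have hd : p.totalDegree = 0 ∨ p.totalDegree = 1 := by omega
  rcases hd with hd | hd
  · rw [hd] at h
    simp only [zero_add, Finset.range_one, Finset.sum_singleton] at h
    have h1 : homogeneousComponent 1 p = 0 :=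
      homogeneousComponent_eq_zero _ _ (by omega)
    rw [h1, add_zero, h]
  · rw [hd] at h
    simp only [Nat.reduceAdd] at h
    rw [Finset.sum_range_succ, Finset.sum_range_one] at h
    exact h.symm

/-- The top component of a product of two polynomials of degree at most one. -/
theorem hc_two_mul {d m : S K} (hd : d.totalDegree ≤ 1) (hm : m.totalDegree ≤ 1) :
    homogeneousComponent 2 (d * m) = homogeneousComponent 1 d * homogeneousComponent 1 m := by
  have hd0 := hc_mem d 0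
  have hd1 := hc_mem d 1
  have hm0 := hc_mem m 0
  have hm1 := hc_mem m 1
  set a := homogeneousComponent 0 d
  set b := homogeneousComponent 1 d
  set u := homogeneousComponent 0 m
  set v := homogeneousComponent 1 m
  have e : d * m = a * u + a * v + b * u + b * v := by
    conv_lhs => rw [deg_one_components hd, deg_one_components hm]
    ring
  rw [e, map_add, map_add, map_add]
  have h1 : a * u ∈ H K 0 := mul_mem_H hd0 hm0 (by omega)
  have h2 : a * v ∈ H K 1 := mul_mem_H hd0 hm1 (by omega)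
  have h3 : b * u ∈ H K 1 := mul_mem_H hd1 hm0 (by omega)
  have h4 : b * v ∈ H K 2 := mul_mem_H hd1 hm1 (by omega)
  rw [homogeneousComponent_of_mem h1, homogeneousComponent_of_mem h2,
    homogeneousComponent_of_mem h3, homogeneousComponent_of_mem h4]
  simp

/-- Without linear syzygy, independent quadrics are relatively prime. -/
theorem relPrime_of_not_LS {Q1 Q2 : S K} (h1 : Q1 ∈ H K 2) (h2 : Q2 ∈ H K 2) (hi : Ind2 Q1 Q2)
    (hs : ¬ LS Q1 Q2) : IsRelPrime Q1 Q2 := by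
  intro d hd1 hd2
  obtain ⟨m1, e1⟩ := hd1
  obtain ⟨m2, e2⟩ := hd2
  have hQ1 := hi.left_ne
  have hQ2 := hi.right_ne
  have hd0 : d ≠ 0 := by
    rintro rfl
    exact hQ1 (by simpa using e1)
  have hm1 : m1 ≠ 0 := by
    rintro rfl
    exact hQ1 (by simpa using e1)
  have hm2 : m2 ≠ 0 := by
    rintro rfl
    exact hQ2 (by simpa using e2)
  have t1 : d.totalDegree + m1.totalDegree = 2 := by
    rw [← totalDegree_mul_of_isDomain hd0 hm1, ← e1]
    exact IsHomogeneous.totalDegree h1 hQ1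
  have t2 : d.totalDegree + m2.totalDegree = 2 := by
    rw [← totalDegree_mul_of_isDomain hd0 hm2, ← e2]
    exact IsHomogeneous.totalDegree h2 hQ2
  by_cases ht0 : d.totalDegree = 0
  · obtain ⟨t, ht⟩ : ∃ t : K, d = C t := ⟨_, totalDegree_eq_zero_iff_eq_C.1 ht0⟩
    rw [ht] at hd0 ⊢
    have : t ≠ 0 := by
      rintro rfl
      simp at hd0
    exact (isUnit_iff_ne_zero.2 this).map C
  exfalso
  by_cases ht2 : d.totalDegree = 2
  · obtain ⟨s, hs1⟩ : ∃ t : K, m1 = C t :=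
      ⟨_, totalDegree_eq_zero_iff_eq_C.1 (by omega : m1.totalDegree = 0)⟩
    obtain ⟨t, ht1⟩ : ∃ t : K, m2 = C t :=
      ⟨_, totalDegree_eq_zero_iff_eq_C.1 (by omega : m2.totalDegree = 0)⟩
    have e3 : t • Q1 + (-s) • Q2 = 0 := by
      rw [e1, e2, hs1, ht1, neg_smul, smul_eq_C_mul, smul_eq_C_mul]
      ring
    obtain ⟨h3, h4⟩ := hi _ _ e3
    rw [ht1, h3] at hm2
    simp at hm2
  · have dd : d.totalDegree ≤ 1 := by omega
    have d1 : m1.totalDegree ≤ 1 := by omega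
    have d2 : m2.totalDegree ≤ 1 := by omega
    have f1 := hc_two_mul dd d1
    have f2 := hc_two_mul dd d2
    rw [← e1, hc_of_mem h1] at f1
    rw [← e2, hc_of_mem h2] at f2
    apply hs
    refine ⟨homogeneousComponent 1 m2, -homogeneousComponent 1 m1, hc_mem _ _,
      neg_mem (hc_mem _ _), ?_, ?_⟩
    · right
      rw [neg_ne_zero]
      intro hz
      rw [hz, mul_zero] at f1
      exact hQ1 f1
    · rw [f1, f2]
      ring

/-- Quadratic syzygies of quadrics without linear syzygy are the Koszul ones. -/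
theorem syz2 {Q1 Q2 : S K} (h1 : Q1 ∈ H K 2) (h2 : Q2 ∈ H K 2) (hi : Ind2 Q1 Q2)
    (hs : ¬ LS Q1 Q2) {A B : S K} (hB : B ∈ H K 2) (e : A * Q1 + B * Q2 = 0) :
    ∃ t : K, A = C t * Q2 ∧ B = -(C t * Q1) := by
  have hrel := relPrime_of_not_LS h1 h2 hi hs
  have hd : Q1 ∣ B * Q2 := ⟨-A, by linear_combination e⟩
  obtain ⟨g, hg⟩ := hrel.dvd_of_dvd_mul_right hd
  have hg2 : B = Q1 * homogeneousComponent 0 g := by
    have := hc_mul h1 g 0
    rw [← hg, zero_add, hc_of_mem hB] at this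
    exact this
  obtain ⟨t, ht⟩ := H0_eq (hc_mem g 0)
  rw [ht] at hg2
  refine ⟨-t, ?_, ?_⟩
  · apply mul_right_cancel₀ hi.left_ne
    rw [hg2] at e
    rw [C_neg]
    linear_combination e
  · rw [hg2, C_neg]
    ring

/-- **Zigzag**: `x_j Q3 ∈ (Q1, Q2)` for all `j` with no linear syzygy is impossible. -/
theorem zigzag {Q1 Q2 Q3 : S K} (h1 : Q1 ∈ H K 2) (h2 : Q2 ∈ H K 2) (hi : Ind3 Q1 Q2 Q3)
    (hs : ¬ LS Q1 Q2)
    (hex : ∀ j : Fin 3, ∃ a b : S K, a ∈ H K 1 ∧ b ∈ H K 1 ∧ X j * Q3 = a * Q1 + b * Q2) : False := by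
  have hi2 : Ind2 Q1 Q2 := by
    intro a b hab
    obtain ⟨h3, h4, -⟩ := hi a b 0 (by simpa using hab)
    exact ⟨h3, h4⟩
  have hQ2 := hi2.right_ne
  choose a b ha hb hab using hex
  have key : ∀ i j : Fin 3, ∃ t : K, X i * a j - X j * a i = C t * Q2 ∧
      X i * b j - X j * b i = -(C t * Q1) := by
    intro i j
    refine syz2 h1 h2 hi2 hs (sub_mem (mul_mem_H (X_mem_H1 i) (hb j) (by omega))
      (mul_mem_H (X_mem_H1 j) (hb i) (by omega))) ?_
    linear_combination (-X i) * hab j + X j * hab i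
  obtain ⟨e01, a01, b01⟩ := key 0 1
  obtain ⟨e02, a02, b02⟩ := key 0 2
  obtain ⟨e12, a12, b12⟩ := key 1 2
  have hcyc : (C e12 * X 0 + C (-e02) * X 1 + C e01 * X 2 : S K) * Q2 = 0 := by
    rw [C_neg]
    linear_combination X 0 * (-a12) + X 1 * a02 - X 2 * a01
  obtain ⟨e12z, e02z, e01z⟩ := X_indep ((mul_eq_zero.1 hcyc).resolve_right hQ2)
  have e02z' : e02 = 0 := neg_eq_zero.1 e02z
  rw [e01z] at a01 b01
  rw [e02z'] at a02 b02
  rw [e12z] at a12 b12
  simp only [C_0, zero_mul, neg_zero] at a01 b01 a02 b02 a12 b12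
  obtain ⟨α, hα0, hα1, hα2⟩ := lin_triple (U := a 0) (V := a 1) (W := a 2)
    (by linear_combination -a01) (by linear_combination -a02)
  obtain ⟨β, hβ0, hβ1, hβ2⟩ := lin_triple (U := b 0) (V := b 1) (W := b 2)
    (by linear_combination -b01) (by linear_combination -b02)
  -- `α, β` may be taken constant
  have hα := dvd_factor (n := 0) (X_mem_H1 0) (ha 0) hα0
  have hβ := dvd_factor (n := 0) (X_mem_H1 0) (hb 0) hβ0
  obtain ⟨s, hs'⟩ := H0_eq (hc_mem α 0)
  obtain ⟨t, ht'⟩ := H0_eq (hc_mem β 0)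
  rw [hs'] at hα
  rw [ht'] at hβ
  have h0 := hab 0
  rw [hα, hβ] at h0
  have h3 : Q3 = C s * Q1 + C t * Q2 := by
    apply mul_left_cancel₀ (X_ne_zero (0 : Fin 3) : (X 0 : S K) ≠ 0)
    linear_combination h0
  have h4 : (-s) • Q1 + (-t) • Q2 + (1 : K) • Q3 = 0 := by
    rw [one_smul, neg_smul, neg_smul, smul_eq_C_mul, smul_eq_C_mul, h3]
    ring
  exact one_ne_zero (hi _ _ _ h4).2.2

end Vale.Agent.P200
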